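import Vale.Agent.P183.H287.Core

/-!
The subgroups of the fibre product which contain the diagonal of a maximal subgroup.
-/

set_option autoImplicit false

namespace Vale.Agent.P183.H287

variable {Q : Type} [Group Q] {T Q0 : Subgroup Q}

/-- The diagonal element. -/
def dg (T : Subgroup Q) [T.Normal] (q : Q) : Fi T :=
  ⟨(q, q), by rw [mem_Fi]; simp [T.one_mem]⟩

theorem dg_mem [T.Normal] {X : Subgroup (Fi T)} (hX : Dg T Q0 ≤ X) {q : Q} (hq : q ∈ Q0) :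
    dg T q ∈ X := hX (show dg T q ∈ Dg T Q0 from ⟨rfl, hq⟩)

theorem ext_Fi [T.Normal] {x y : Fi T} (h1 : x.1.1 = y.1.1) (h2 : x.1.2 = y.1.2) : x = y :=
  Subtype.ext (Prod.ext h1 h2)

/-- The elements `n` with `(n, 1) ∈ X`. -/
def N1 [T.Normal] (X : Subgroup (Fi T)) : Subgroup Q := (X ⊓ (p2 T).ker).map (p1 T)

theorem mem_N1 [T.Normal] {X : Subgroup (Fi T)} {n : Q} :
    n ∈ N1 X ↔ ∃ x : Fi T, x ∈ X ∧ x.1.2 = 1 ∧ x.1.1 = n := by
  constructor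
  · rintro ⟨x, ⟨hx, hx'⟩, h⟩
    exact ⟨x, hx, hx', h⟩
  · rintro ⟨x, hx, hx', h⟩
    exact ⟨x, ⟨hx, hx'⟩, h⟩

/-- The elements `n` with `(1, n) ∈ X`. -/
def N2 [T.Normal] (X : Subgroup (Fi T)) : Subgroup Q := (X ⊓ (p1 T).ker).map (p2 T)

theorem mem_N2 [T.Normal] {X : Subgroup (Fi T)} {n : Q} :
    n ∈ N2 X ↔ ∃ x : Fi T, x ∈ X ∧ x.1.1 = 1 ∧ x.1.2 = n := by
  constructor
  · rintro ⟨x, ⟨hx, hx'⟩, h⟩
    exact ⟨x, hx, hx', h⟩
  · rintro ⟨x, hx, hx', h⟩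
    exact ⟨x, ⟨hx, hx'⟩, h⟩

theorem key1 [T.Normal] {X : Subgroup (Fi T)} {x y : Fi T} (hx : x ∈ X) (h : y.1.2 = x.1.2) :
    y ∈ X ↔ y.1.1 * x.1.1⁻¹ ∈ N1 X := by
  rw [mem_N1]
  constructor
  · intro hy
    refine ⟨y * x⁻¹, X.mul_mem hy (X.inv_mem hx), ?_, rfl⟩
    change y.1.2 * x.1.2⁻¹ = 1
    rw [h, mul_inv_cancel]
  · rintro ⟨z, hz, h1, h2⟩
    have e : y = z * x := by
      apply ext_Fi
      · change y.1.1 = z.1.1 * x.1.1
        rw [h2]; group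
      · change y.1.2 = z.1.2 * x.1.2
        rw [h1, h, one_mul]
    rw [e]
    exact X.mul_mem hz hx

theorem key2 [T.Normal] {X : Subgroup (Fi T)} {x y : Fi T} (hx : x ∈ X) (h : y.1.1 = x.1.1) :
    y ∈ X ↔ y.1.2 * x.1.2⁻¹ ∈ N2 X := by
  rw [mem_N2]
  constructor
  · intro hy
    refine ⟨y * x⁻¹, X.mul_mem hy (X.inv_mem hx), ?_, rfl⟩
    change y.1.1 * x.1.1⁻¹ = 1
    rw [h, mul_inv_cancel]
  · rintro ⟨z, hz, h1, h2⟩
    have e : y = z * x := by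
      apply ext_Fi
      · change y.1.1 = z.1.1 * x.1.1
        rw [h1, h, one_mul]
      · change y.1.2 = z.1.2 * x.1.2
        rw [h2]; group
    rw [e]
    exact X.mul_mem hz hx

theorem N1_conj [T.Normal] {X : Subgroup (Fi T)} {z : Fi T} (hz : z ∈ X) {n : Q}
    (hn : n ∈ N1 X) : z.1.1 * n * z.1.1⁻¹ ∈ N1 X := by
  rw [mem_N1] at hn ⊢
  obtain ⟨x, hx, h1, h2⟩ := hn
  refine ⟨z * x * z⁻¹, X.mul_mem (X.mul_mem hz hx) (X.inv_mem hz), ?_, ?_⟩
  · change z.1.2 * x.1.2 * z.1.2⁻¹ = 1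
    rw [h1]; group
  · change z.1.1 * x.1.1 * z.1.1⁻¹ = _
    rw [h2]

theorem N2_conj [T.Normal] {X : Subgroup (Fi T)} {z : Fi T} (hz : z ∈ X) {n : Q}
    (hn : n ∈ N2 X) : z.1.2 * n * z.1.2⁻¹ ∈ N2 X := by
  rw [mem_N2] at hn ⊢
  obtain ⟨x, hx, h1, h2⟩ := hn
  refine ⟨z * x * z⁻¹, X.mul_mem (X.mul_mem hz hx) (X.inv_mem hz), ?_, ?_⟩
  · change z.1.1 * x.1.1 * z.1.1⁻¹ = 1
    rw [h1]; group
  · change z.1.2 * x.1.2 * z.1.2⁻¹ = _
    rw [h2]

theorem N1_le [T.Normal] (X : Subgroup (Fi T)) : N1 X ≤ T := by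
  intro n hn
  obtain ⟨x, hx, h1, h2⟩ := mem_N1.1 hn
  have := mem_Fi (T := T) |>.1 x.2
  rw [h1, h2, inv_one, mul_one] at this
  exact this

theorem N2_le [T.Normal] (X : Subgroup (Fi T)) : N2 X ≤ T := by
  intro n hn
  obtain ⟨x, hx, h1, h2⟩ := mem_N2.1 hn
  have := mem_Fi (T := T) |>.1 x.2
  rw [h1, h2, one_mul] at this
  simpa using T.inv_mem this

theorem mem_map1 [T.Normal] {X : Subgroup (Fi T)} {q : Q} (h : q ∈ X.map (p1 T)) :
    ∃ x ∈ X, x.1.1 = q := h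

theorem mem_map2 [T.Normal] {X : Subgroup (Fi T)} {q : Q} (h : q ∈ X.map (p2 T)) :
    ∃ x ∈ X, x.1.2 = q := h

/-- The classification of the subgroups which contain the diagonal of `Q0`. -/
theorem classify {A B : Subgroup Q} [T.Normal] (hmax : IsCoatom Q0)
    (h4 : ∀ N : Subgroup Q, N ≤ T ⊓ Q0 → (∀ q ∈ Q0, ∀ x ∈ N, q * x * q⁻¹ ∈ N) →
      N = ⊥ ∨ N = A ∨ N = B ∨ N = T ⊓ Q0)
    (t : Q) (ht : t ∉ Q0)
    (hC : ∀ c, (∀ h ∈ Q0, t⁻¹ * h * t ∈ Q0 → c * h = h * c) → c = 1)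
    (hnc : ∀ N : Subgroup Q, N ≤ T → (∀ q, ∀ x ∈ N, q * x * q⁻¹ ∈ N) → N = ⊥ ∨ N = T)
    (X : Subgroup (Fi T)) (hX : Dg T Q0 ≤ X) :
    (∀ x : Fi T, x ∈ X ↔ x.1.2 ∈ Q0 ∧ x.1.1 * x.1.2⁻¹ ∈ (⊥ : Subgroup Q)) ∨
    (∀ x : Fi T, x ∈ X ↔ x.1.2 ∈ Q0 ∧ x.1.1 * x.1.2⁻¹ ∈ A) ∨
    (∀ x : Fi T, x ∈ X ↔ x.1.2 ∈ Q0 ∧ x.1.1 * x.1.2⁻¹ ∈ B) ∨
    (∀ x : Fi T, x ∈ X ↔ x.1.2 ∈ Q0 ∧ x.1.1 * x.1.2⁻¹ ∈ T ⊓ Q0) ∨
    (∀ x : Fi T, x ∈ X ↔ x.1.2 ∈ Q0 ∧ x.1.1 * x.1.2⁻¹ ∈ T) ∨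
    (∀ x : Fi T, x ∈ X ↔ x.1.1 ∈ Q0) ∨
    (∀ x : Fi T, x ∈ X ↔ x.1.1 = x.1.2) ∨ (∀ x : Fi T, x ∈ X) := by
  have h1 : Q0 ≤ X.map (p1 T) := fun q hq => ⟨dg T q, dg_mem hX hq, rfl⟩
  have h2 : Q0 ≤ X.map (p2 T) := fun q hq => ⟨dg T q, dg_mem hX hq, rfl⟩
  rcases coatom_cases hmax h2 with e2 | e2
  · have hX1 : ∀ x : Fi T, x ∈ X ↔ x.1.2 ∈ Q0 ∧ x.1.1 * x.1.2⁻¹ ∈ N1 X := by
      intro x
      constructor
      · intro hx
        have hx2 : x.1.2 ∈ Q0 := by rw [← e2]; exact ⟨x, hx, rfl⟩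
        exact ⟨hx2, (key1 (dg_mem hX hx2) (x := dg T x.1.2) (y := x) rfl).1 hx⟩
      · rintro ⟨hx2, hx⟩
        exact (key1 (dg_mem hX hx2) (x := dg T x.1.2) (y := x) rfl).2 hx
    rcases coatom_cases hmax h1 with e1 | e1
    · have hle : N1 X ≤ T ⊓ Q0 := by
        intro n hn
        refine ⟨N1_le X hn, ?_⟩
        obtain ⟨x, hx, -, h⟩ := mem_N1.1 hn
        rw [← e1]
        exact ⟨x, hx, h⟩
      rcases h4 _ hle (fun q hq x hx => N1_conj (dg_mem hX hq) hx) with h | h | h | h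
      · rw [h] at hX1; exact Or.inl hX1
      · rw [h] at hX1; exact Or.inr (Or.inl hX1)
      · rw [h] at hX1; exact Or.inr (Or.inr (Or.inl hX1))
      · rw [h] at hX1; exact Or.inr (Or.inr (Or.inr (Or.inl hX1)))
    · have hall : ∀ q, ∀ x ∈ N1 X, q * x * q⁻¹ ∈ N1 X := by
        intro q x hx
        obtain ⟨z, hz, rfl⟩ := mem_map1 (X := X) (q := q) (by rw [e1]; trivial)
        exact N1_conj hz hx
      rcases hnc _ (N1_le X) hall with h | h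
      · exfalso
        obtain ⟨z, hz, hzt⟩ := mem_map1 (X := X) (q := t) (by rw [e1]; trivial)
        obtain ⟨h5, h6⟩ := (hX1 z).1 hz
        rw [h, Subgroup.mem_bot, mul_inv_eq_one] at h6
        apply ht
        rw [← hzt, h6]
        exact h5
      · rw [h] at hX1
        exact Or.inr (Or.inr (Or.inr (Or.inr (Or.inl hX1))))
  · have hall2 : ∀ q, ∀ x ∈ N2 X, q * x * q⁻¹ ∈ N2 X := by
      intro q x hx
      obtain ⟨z, hz, rfl⟩ := mem_map2 (X := X) (q := q) (by rw [e2]; trivial)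
      exact N2_conj hz hx
    rcases coatom_cases hmax h1 with e1 | e1
    · refine Or.inr (Or.inr (Or.inr (Or.inr (Or.inr (Or.inl ?_)))))
      rcases hnc _ (N2_le X) hall2 with h | h
      · exfalso
        obtain ⟨z, hz, hzt⟩ := mem_map2 (X := X) (q := t) (by rw [e2]; trivial)
        have h5 : z.1.1 ∈ Q0 := by rw [← e1]; exact ⟨z, hz, rfl⟩
        have h6 := (key2 (dg_mem hX h5) (x := dg T z.1.1) (y := z) rfl).1 hz
        rw [h, Subgroup.mem_bot, mul_inv_eq_one] at h6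
        apply ht
        rw [← hzt, h6]
        exact h5
      · intro x
        constructor
        · intro hx
          rw [← e1]
          exact ⟨x, hx, rfl⟩
        · intro hx
          refine (key2 (dg_mem hX hx) (x := dg T x.1.1) (y := x) rfl).2 ?_
          rw [h]
          have h5 := T.inv_mem (mem_Fi (T := T) |>.1 x.2)
          have e : (x.1.1 * x.1.2⁻¹)⁻¹ = x.1.2 * (dg T x.1.1).1.2⁻¹ := by
            change _ = x.1.2 * x.1.1⁻¹
            group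
          rw [e] at h5
          exact h5
    · have hall : ∀ q, ∀ x ∈ N1 X, q * x * q⁻¹ ∈ N1 X := by
        intro q x hx
        obtain ⟨z, hz, rfl⟩ := mem_map1 (X := X) (q := q) (by rw [e1]; trivial)
        exact N1_conj hz hx
      rcases hnc _ (N1_le X) hall with h | h
      · refine Or.inr (Or.inr (Or.inr (Or.inr (Or.inr (Or.inr (Or.inl ?_))))))
        obtain ⟨y, hy, hyt⟩ := mem_map2 (X := X) (q := t) (by rw [e2]; trivial)
        have hc : y.1.1 * t⁻¹ = 1 := by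
          apply hC
          intro x hx hx'
          have h5 : y * dg T (t⁻¹ * x * t) * y⁻¹ ∈ X :=
            X.mul_mem (X.mul_mem hy (dg_mem hX hx')) (X.inv_mem hy)
          have h6 := (key1 (dg_mem hX hx) (x := dg T x) (y := y * dg T (t⁻¹ * x * t) * y⁻¹)
            (by
              change y.1.2 * (t⁻¹ * x * t) * y.1.2⁻¹ = x
              rw [hyt]; group)).1 h5
          rw [h, Subgroup.mem_bot, mul_inv_eq_one] at h6
          change y.1.1 * (t⁻¹ * x * t) * y.1.1⁻¹ = x at h6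
          have h7 : y.1.1 * (t⁻¹ * x * t) * y.1.1⁻¹ * (y.1.1 * t⁻¹) = x * (y.1.1 * t⁻¹) := by
            rw [h6]
          rw [← h7]; group
        have hyt' : y.1.1 = t := mul_inv_eq_one.1 hc
        have hdt : dg T t ∈ X := by
          have e : dg T t = y := ext_Fi hyt'.symm hyt.symm
          rw [e]; exact hy
        let D : Subgroup Q :=
          { carrier := {q | dg T q ∈ X}
            one_mem' := X.one_mem
            mul_mem' := fun {a b} ha hb => X.mul_mem ha hb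
            inv_mem' := fun {a} ha => X.inv_mem ha }
        have hD : D = ⊤ := by
          rcases coatom_cases hmax (X := D) (fun q hq => dg_mem hX hq) with h5 | h5
          · exact absurd (h5 ▸ (show t ∈ D from hdt)) ht
          · exact h5
        have hDall : ∀ q, dg T q ∈ X := by
          intro q
          have : q ∈ D := by rw [hD]; trivial
          exact this
        intro x
        rw [key1 (hDall x.1.2) (y := x) rfl, h, Subgroup.mem_bot, mul_inv_eq_one]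
        rfl
      · refine Or.inr (Or.inr (Or.inr (Or.inr (Or.inr (Or.inr (Or.inr ?_))))))
        intro x
        obtain ⟨y, hy, hyx⟩ := mem_map2 (X := X) (q := x.1.2) (by rw [e2]; trivial)
        refine (key1 hy hyx.symm).2 ?_
        rw [h]
        have h5 := T.mul_mem (mem_Fi (T := T) |>.1 x.2) (T.inv_mem (mem_Fi (T := T) |>.1 y.2))
        have e : x.1.1 * x.1.2⁻¹ * (y.1.1 * y.1.2⁻¹)⁻¹ = x.1.1 * y.1.1⁻¹ := by
          rw [hyx]; group
        rw [e] at h5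
        exact h5

end Vale.Agent.P183.H287
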