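import Mathlib.Algebra.Group.Subgroup.Lattice
import Mathlib.Algebra.Group.Subgroup.Map
import Mathlib.Algebra.Group.Subgroup.Pointwise
import Mathlib.Algebra.Group.Prod
import Mathlib.Data.Fintype.Fin
import Mathlib.Tactic

/-!
Subgroups of a fibre product which contain the diagonal of a maximal subgroup.
-/

set_option autoImplicit false

namespace Vale.Agent.P183.H287

variable {Q : Type} [Group Q] (T Q0 : Subgroup Q)

/-- The fibre product of `Q` and `Q` over `Q ⧸ T`. -/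
def Fi [T.Normal] : Subgroup (Q × Q) where
  carrier := {x | x.1 * x.2⁻¹ ∈ T}
  one_mem' := by simp [T.one_mem]
  mul_mem' := by
    intro x y hx hy
    have h := T.mul_mem hx ((inferInstance : T.Normal).conj_mem _ hy x.2)
    have e : x.1 * x.2⁻¹ * (x.2 * (y.1 * y.2⁻¹) * x.2⁻¹) = (x * y).1 * (x * y).2⁻¹ := by
      simp [mul_assoc]
    rw [e] at h
    exact h
  inv_mem' := by
    intro x hx
    have h := T.inv_mem ((inferInstance : T.Normal).conj_mem _ hx x.2⁻¹)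
    have e : (x.2⁻¹ * (x.1 * x.2⁻¹) * x.2⁻¹⁻¹)⁻¹ = (x⁻¹).1 * (x⁻¹).2⁻¹ := by
      simp [mul_assoc]
    rw [e] at h
    exact h

theorem mem_Fi [T.Normal] {x : Q × Q} : x ∈ Fi T ↔ x.1 * x.2⁻¹ ∈ T := Iff.rfl

/-- The diagonal of `Q0`. -/
def Dg [T.Normal] : Subgroup (Fi T) where
  carrier := {x | x.1.1 = x.1.2 ∧ x.1.1 ∈ Q0}
  one_mem' := ⟨rfl, Q0.one_mem⟩
  mul_mem' := by
    rintro x y ⟨h1, h2⟩ ⟨h3, h4⟩
    refine ⟨?_, ?_⟩
    · change x.1.1 * y.1.1 = x.1.2 * y.1.2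
      rw [h1, h3]
    · exact Q0.mul_mem h2 h4
  inv_mem' := by
    rintro x ⟨h1, h2⟩
    refine ⟨?_, ?_⟩
    · change (x.1.1)⁻¹ = (x.1.2)⁻¹
      rw [h1]
    · exact Q0.inv_mem h2

theorem mem_Dg [T.Normal] {x : Fi T} : x ∈ Dg T Q0 ↔ x.1.1 = x.1.2 ∧ x.1.1 ∈ Q0 := Iff.rfl

/-- The elements of the fibre product over `Q0` with quotient in `N`. -/
def Mn [T.Normal] (N : Subgroup Q) (hN : ∀ q ∈ Q0, ∀ x ∈ N, q * x * q⁻¹ ∈ N) :
    Subgroup (Fi T) where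
  carrier := {x | x.1.2 ∈ Q0 ∧ x.1.1 * x.1.2⁻¹ ∈ N}
  one_mem' := ⟨Q0.one_mem, by simp [N.one_mem]⟩
  mul_mem' := by
    rintro x y ⟨h1, h2⟩ ⟨h3, h4⟩
    refine ⟨Q0.mul_mem h1 h3, ?_⟩
    have h := N.mul_mem h2 (hN _ h1 _ h4)
    have e : x.1.1 * x.1.2⁻¹ * (x.1.2 * (y.1.1 * y.1.2⁻¹) * x.1.2⁻¹) =
        (x * y).1.1 * (x * y).1.2⁻¹ := by
      simp [mul_assoc]
    rw [e] at h
    exact h
  inv_mem' := by
    rintro x ⟨h1, h2⟩
    refine ⟨Q0.inv_mem h1, ?_⟩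
    have h := N.inv_mem (hN _ (Q0.inv_mem h1) _ h2)
    have e : (x.1.2⁻¹ * (x.1.1 * x.1.2⁻¹) * x.1.2⁻¹⁻¹)⁻¹ = (x⁻¹).1.1 * (x⁻¹).1.2⁻¹ := by
      simp [mul_assoc]
    rw [e] at h
    exact h

theorem mem_Mn [T.Normal] {N : Subgroup Q} {hN : ∀ q ∈ Q0, ∀ x ∈ N, q * x * q⁻¹ ∈ N}
    {x : Fi T} : x ∈ Mn T Q0 N hN ↔ x.1.2 ∈ Q0 ∧ x.1.1 * x.1.2⁻¹ ∈ N := Iff.rfl

/-- The projections. -/
def p1 [T.Normal] : Fi T →* Q := (MonoidHom.fst Q Q).comp (Fi T).subtype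
def p2 [T.Normal] : Fi T →* Q := (MonoidHom.snd Q Q).comp (Fi T).subtype

theorem p1_apply [T.Normal] (x : Fi T) : p1 T x = x.1.1 := rfl
theorem p2_apply [T.Normal] (x : Fi T) : p2 T x = x.1.2 := rfl

variable {T Q0}

/-- Normal subgroups of `Q` inside `T`. -/
theorem normal_cases {A B : Subgroup Q} [T.Normal] (hmax : IsCoatom Q0)
    (h4 : ∀ N : Subgroup Q, N ≤ T ⊓ Q0 → (∀ q ∈ Q0, ∀ x ∈ N, q * x * q⁻¹ ∈ N) →
      N = ⊥ ∨ N = A ∨ N = B ∨ N = T ⊓ Q0)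
    (t : Q) (ht : t ∉ Q0)
    (hC : ∀ c, (∀ h ∈ Q0, t⁻¹ * h * t ∈ Q0 → c * h = h * c) → c = 1)
    (a b c : Q) (ha : a ∈ A) (hb : b ∈ B)
    (ha' : t * a * t⁻¹ ∈ Q0) (ha'' : t * a * t⁻¹ ∉ A) (hb' : t * b * t⁻¹ ∈ Q0)
    (hb'' : t * b * t⁻¹ ∉ B) (hc : c ∈ T ⊓ Q0) (hc' : t * c * t⁻¹ ∉ Q0)
    (N : Subgroup Q) (hNT : N ≤ T) (hN : ∀ q, ∀ x ∈ N, q * x * q⁻¹ ∈ N) : N = ⊥ ∨ N = T := by
  have hcap := h4 (N ⊓ Q0) (inf_le_inf_right _ hNT) (fun q hq x hx =>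
    ⟨hN q x hx.1, Q0.mul_mem (Q0.mul_mem hq hx.2) (Q0.inv_mem hq)⟩)
  by_cases hle : N ≤ Q0
  · left
    rw [inf_eq_left.2 hle] at hcap
    rcases hcap with h | h | h | h
    · exact h
    · exact absurd (h ▸ hN t a (h ▸ ha)) ha''
    · exact absurd (h ▸ hN t b (h ▸ hb)) hb''
    · exact absurd (hle (hN t c (h ▸ hc))) hc'
  · have hnorm : N.Normal := ⟨fun x hx q => hN q x hx⟩
    have htop : N ⊔ Q0 = ⊤ := by
      have h1 : Q0 ≤ N ⊔ Q0 := le_sup_right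
      rcases h1.lt_or_eq with h2 | h2
      · exact hmax.2 _ h2
      · exact absurd (le_sup_left.trans h2.ge) hle
    have hdec : ∀ x : Q, ∃ n ∈ N, ∃ q ∈ Q0, n * q = x := by
      intro x
      have hx : x ∈ ((N ⊔ Q0 : Subgroup Q) : Set Q) := by rw [htop]; trivial
      rw [Subgroup.normal_mul] at hx
      obtain ⟨n, hn, q, hq, e⟩ := hx
      exact ⟨n, hn, q, hq, e⟩
    rcases hcap with h | h | h | h
    · exfalso
      obtain ⟨n, hn, q, hq, hnq⟩ := hdec t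
      have hn1 : n = 1 := by
        apply hC
        intro x hx hx'
        have h1 : n⁻¹ * x * n ∈ Q0 := by
          have e : n⁻¹ * x * n = q * (t⁻¹ * x * t) * q⁻¹ := by
            rw [← hnq]; group
          rw [e]
          exact Q0.mul_mem (Q0.mul_mem hq hx') (Q0.inv_mem hq)
        have h2 : x⁻¹ * (n⁻¹ * x * n) ∈ N := by
          have e : x⁻¹ * (n⁻¹ * x * n) = (x⁻¹ * n⁻¹ * x⁻¹⁻¹) * n := by group
          rw [e]
          exact N.mul_mem (hN _ _ (N.inv_mem hn)) hn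
        have h3 : x⁻¹ * (n⁻¹ * x * n) ∈ N ⊓ Q0 := ⟨h2, Q0.mul_mem (Q0.inv_mem hx) h1⟩
        rw [h, Subgroup.mem_bot] at h3
        have h4 : n⁻¹ * x * n = x := (inv_mul_eq_one.1 h3).symm
        have h5 : n * (n⁻¹ * x * n) = n * x := by rw [h4]
        have h6 : n * (n⁻¹ * x * n) = x * n := by group
        rw [← h5, h6]
      rw [hn1, one_mul] at hnq
      exact ht (hnq ▸ hq)
    · exfalso
      have h1 : a ∈ N ⊓ Q0 := h ▸ ha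
      have h2 : t * a * t⁻¹ ∈ N ⊓ Q0 := ⟨hN t a h1.1, ha'⟩
      exact ha'' (h ▸ h2)
    · exfalso
      have h1 : b ∈ N ⊓ Q0 := h ▸ hb
      have h2 : t * b * t⁻¹ ∈ N ⊓ Q0 := ⟨hN t b h1.1, hb'⟩
      exact hb'' (h ▸ h2)
    · right
      refine le_antisymm hNT fun x hx => ?_
      obtain ⟨n, hn, q, hq, hnq⟩ := hdec x
      have h1 : q ∈ T ⊓ Q0 := by
        refine ⟨?_, hq⟩
        have e : q = n⁻¹ * x := by rw [← hnq]; group
        rw [e]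
        exact T.mul_mem (T.inv_mem (hNT hn)) hx
      have h2 : q ∈ N ⊓ Q0 := h ▸ h1
      rw [← hnq]
      exact N.mul_mem hn h2.1

/-- A subgroup which contains a maximal one. -/
theorem coatom_cases (hmax : IsCoatom Q0) {X : Subgroup Q} (h : Q0 ≤ X) : X = Q0 ∨ X = ⊤ := by
  rcases h.lt_or_eq with h2 | h2
  · exact Or.inr (hmax.2 _ h2)
  · exact Or.inl h2.symm

end Vale.Agent.P183.H287
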