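import Mathlib.Data.Matrix.Basic
import Mathlib.LinearAlgebra.Matrix.NonsingularInverse
import Mathlib.LinearAlgebra.Matrix.ConjTranspose
import Mathlib.Algebra.Star.Basic
import Mathlib.Data.Fintype.Pi
import Mathlib.Tactic

/-!
The field with sixteen elements and the group `SU_3(4) : 2`.
-/

set_option autoImplicit false

namespace Vale.Agent.P183.H287

/-- The field with sixteen elements: polynomials of degree at most three over `F_2` modulo
`x ^ 4 + x + 1`, coded by four bits. -/
def F16 : Type := Fin 16

namespace F16

instance : DecidableEq F16 := inferInstanceAs (DecidableEq (Fin 16))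
instance : Fintype F16 := inferInstanceAs (Fintype (Fin 16))

def mk (n : ℕ) : F16 := ⟨n % 16, Nat.mod_lt _ (by norm_num)⟩

def tabM : ℕ := 116196760129267793630862849262464326346044543732748708940920453221664288556434379745879494961270582141731748813355742142288220638766218855867759359510984593843506004200114943278699875244065120512813025380665946106619127097398772031257643617143689515450995722003729973585221105779229319991106539050771048038400
def tabC : ℕ := 9924487649903846160

instance : Zero F16 := ⟨mk 0⟩
instance : One F16 := ⟨mk 1⟩
instance : Add F16 := ⟨fun x y => mk (Nat.xor (Fin.val (n := 16) x) (Fin.val (n := 16) y))⟩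
instance : Neg F16 := ⟨fun x => x⟩
instance : Mul F16 :=
  ⟨fun x y => mk (Nat.shiftRight tabM (4 * (16 * Fin.val (n := 16) x + Fin.val (n := 16) y)))⟩

/-- The conjugation `x ↦ x ^ 4`. -/
def cj (x : F16) : F16 := mk (Nat.shiftRight tabC (4 * Fin.val (n := 16) x))

theorem a1 : ∀ x y z : F16, x + y + z = x + (y + z) := by decide +kernel
theorem a2 : ∀ x : F16, 0 + x = x := by decide +kernel
theorem a3 : ∀ x : F16, x + 0 = x := by decide +kernel
theorem a4 : ∀ x y : F16, x + y = y + x := by decide +kernel
theorem a5 : ∀ x : F16, -x + x = 0 := by decide +kernel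
theorem m1 : ∀ x y z : F16, x * y * z = x * (y * z) := by decide +kernel
theorem m2 : ∀ x : F16, 1 * x = x := by decide +kernel
theorem m3 : ∀ x : F16, x * 1 = x := by decide +kernel
theorem m4 : ∀ x y : F16, x * y = y * x := by decide +kernel
theorem d1 : ∀ x y z : F16, x * (y + z) = x * y + x * z := by decide +kernel
theorem d2 : ∀ x y z : F16, (x + y) * z = x * z + y * z := by decide +kernel
theorem z1 : ∀ x : F16, 0 * x = 0 := by decide +kernel
theorem z2 : ∀ x : F16, x * 0 = 0 := by decide +kernel

instance : CommRing F16 where
  add_assoc := a1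
  zero_add := a2
  add_zero := a3
  add_comm := a4
  neg_add_cancel := a5
  mul_assoc := m1
  one_mul := m2
  mul_one := m3
  mul_comm := m4
  left_distrib := d1
  right_distrib := d2
  zero_mul := z1
  mul_zero := z2
  nsmul := nsmulRec
  zsmul := zsmulRec

theorem mul_eq_zero' : ∀ x y : F16, x * y = 0 → x = 0 ∨ y = 0 := by decide +kernel

instance : IsDomain F16 :=
  @NoZeroDivisors.to_isDomain _ _ ⟨⟨0, 1, by decide⟩⟩ ⟨fun {x y} h => mul_eq_zero' x y h⟩

theorem cj_cj : ∀ x : F16, cj (cj x) = x := by decide +kernel
theorem cj_add : ∀ x y : F16, cj (x + y) = cj x + cj y := by decide +kernel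
theorem cj_mul : ∀ x y : F16, cj (x * y) = cj x * cj y := by decide +kernel

instance : StarRing F16 where
  star := cj
  star_involutive := cj_cj
  star_mul x y := (cj_mul x y).trans (mul_comm _ _)
  star_add := cj_add

theorem star_eq (x : F16) : star x = cj x := rfl

end F16

end Vale.Agent.P183.H287
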