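import Vale.Agent.P183.H287.Class
import Vale.Agent.P183.H552.Ord

/-!
An interval of eight subgroups in a fibre product.
-/

set_option autoImplicit false

namespace Vale.Agent.P183.H287

open Vale.Agent.P183.H552

variable {Q : Type} [Group Q] {T Q0 : Subgroup Q}

/-- The eight predicates. -/
def pr (T Q0 A B : Subgroup Q) (x : Q × Q) : Fin 8 → Prop
  | 0 => x.2 ∈ Q0 ∧ x.1 * x.2⁻¹ ∈ (⊥ : Subgroup Q)
  | 1 => x.2 ∈ Q0 ∧ x.1 * x.2⁻¹ ∈ A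
  | 2 => x.2 ∈ Q0 ∧ x.1 * x.2⁻¹ ∈ B
  | 3 => x.2 ∈ Q0 ∧ x.1 * x.2⁻¹ ∈ T ⊓ Q0
  | 4 => x.2 ∈ Q0 ∧ x.1 * x.2⁻¹ ∈ T
  | 5 => x.1 ∈ Q0
  | 6 => x.1 = x.2
  | 7 => True

/-- The membership of the witnesses `(a, 1)`, `(b, 1)`, `(t, 1)`, `(1, t)`, `(t, t)`. -/
def tab : Fin 8 → Fin 5 → Bool
  | 0, _ => false
  | 1, w => w = 0
  | 2, w => w = 1
  | 3, w => w = 0 || w = 1
  | 4, w => w = 0 || w = 1 || w = 2
  | 5, w => w = 0 || w = 1 || w = 3
  | 6, w => w = 4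
  | 7, _ => true

/-- The order. -/
def rel (i j : Fin 8) : Prop :=
  i.val = j.val ∨ i.val = 0 ∨ j.val = 7 ∨ (i.val, j.val) ∈ exc3 2

instance (i j : Fin 8) : Decidable (rel i j) := by unfold rel exc3; infer_instance

theorem tab_rel : ∀ i j : Fin 8, (∀ w : Fin 5, tab i w = true → tab j w = true) → rel i j := by
  decide

theorem rel_antisymm : ∀ i j : Fin 8, rel i j → rel j i → i = j := by decide

theorem fib510 {Q : Type} [Group Q] (T Q0 A B : Subgroup Q) [T.Normal] (hmax : IsCoatom Q0)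
    (hA : A ≤ T ⊓ Q0) (hB : B ≤ T ⊓ Q0) (hAn : ∀ q ∈ Q0, ∀ x ∈ A, q * x * q⁻¹ ∈ A)
    (hBn : ∀ q ∈ Q0, ∀ x ∈ B, q * x * q⁻¹ ∈ B)
    (h4 : ∀ N : Subgroup Q, N ≤ T ⊓ Q0 → (∀ q ∈ Q0, ∀ x ∈ N, q * x * q⁻¹ ∈ N) →
      N = ⊥ ∨ N = A ∨ N = B ∨ N = T ⊓ Q0)
    (t : Q) (htT : t ∈ T) (ht : t ∉ Q0)
    (hC : ∀ c, (∀ h ∈ Q0, t⁻¹ * h * t ∈ Q0 → c * h = h * c) → c = 1)
    (a b c : Q) (ha : a ∈ A) (haB : a ∉ B) (hb : b ∈ B) (hbA : b ∉ A)
    (ha' : t * a * t⁻¹ ∈ Q0) (ha'' : t * a * t⁻¹ ∉ A) (hb' : t * b * t⁻¹ ∈ Q0)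
    (hb'' : t * b * t⁻¹ ∉ B) (hc : c ∈ T ⊓ Q0) (hc' : t * c * t⁻¹ ∉ Q0) :
    Nonempty (Ord8 (exc3 2) ≃o {S : Subgroup (Fi T) // Dg T Q0 ≤ S}) := by
  classical
  have hnc := normal_cases hmax h4 t ht hC a b c ha hb ha' ha'' hb' hb'' hc hc'
  have hcl := classify hmax h4 t ht hC hnc
  have haT : a ∈ T := (hA ha).1
  have haQ : a ∈ Q0 := (hA ha).2
  have hbT : b ∈ T := (hB hb).1
  have hbQ : b ∈ Q0 := (hB hb).2
  have ht1 : t ≠ 1 := fun h => ht (h ▸ Q0.one_mem)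
  have ha1 : a ≠ 1 := fun h => haB (h ▸ B.one_mem)
  have hb1 : b ≠ 1 := fun h => hbA (h ▸ A.one_mem)
  have htA : t ∉ A := fun h => ht (hA h).2
  have htB : t ∉ B := fun h => ht (hB h).2
  have hTn : ∀ q ∈ Q0, ∀ x ∈ T, q * x * q⁻¹ ∈ T :=
    fun q _ x hx => (inferInstance : T.Normal).conj_mem x hx q
  have hTQn : ∀ q ∈ Q0, ∀ x ∈ T ⊓ Q0, q * x * q⁻¹ ∈ T ⊓ Q0 :=
    fun q hq x hx => ⟨hTn q hq x hx.1, Q0.mul_mem (Q0.mul_mem hq hx.2) (Q0.inv_mem hq)⟩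
  have hbn : ∀ q ∈ Q0, ∀ x ∈ (⊥ : Subgroup Q), q * x * q⁻¹ ∈ (⊥ : Subgroup Q) := by
    intro q _ x hx
    rw [Subgroup.mem_bot] at hx ⊢
    rw [hx]; group
  -- the eight subgroups
  let S : Fin 8 → Subgroup (Fi T) := ![Mn T Q0 ⊥ hbn, Mn T Q0 A hAn, Mn T Q0 B hBn,
    Mn T Q0 (T ⊓ Q0) hTQn, Mn T Q0 T hTn, Q0.comap (p1 T), (p1 T).eqLocus (p2 T), ⊤]
  have hS : ∀ i (x : Fi T), x ∈ S i ↔ pr T Q0 A B x.1 i := by
    intro i x
    fin_cases i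
    · exact Iff.rfl
    · exact Iff.rfl
    · exact Iff.rfl
    · exact Iff.rfl
    · exact Iff.rfl
    · exact Iff.rfl
    · exact Iff.rfl
    · exact iff_of_true (Subgroup.mem_top x) trivial
  -- witnesses
  let wit : Fin 5 → Fi T := ![⟨(a, 1), by rw [mem_Fi]; simpa using haT⟩,
    ⟨(b, 1), by rw [mem_Fi]; simpa using hbT⟩, ⟨(t, 1), by rw [mem_Fi]; simpa using htT⟩,
    ⟨(1, t), by rw [mem_Fi]; simpa using htT⟩, dg T t]
  have hw : ∀ i w, wit w ∈ S i ↔ tab i w = true := by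
    intro i w
    rw [hS]
    fin_cases w <;> fin_cases i <;>
      simp [wit, pr, tab, dg, Q0.one_mem, ha1, hb1, ht1, ha, hb, haB, hbA, haT, haQ, hbT, hbQ,
        htT, ht, ht1.symm, htA, htB]
  have hbot : ∀ (x : Fi T), pr T Q0 A B x.1 0 → x.1.1 = x.1.2 ∧ x.1.1 ∈ Q0 ∧ x.1.2 ∈ Q0 := by
    rintro x ⟨h1, h2⟩
    rw [Subgroup.mem_bot, mul_inv_eq_one] at h2
    exact ⟨h2, h2 ▸ h1, h1⟩
  have h0 : Dg T Q0 = S 0 := by
    ext x
    rw [hS]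
    constructor
    · rintro ⟨h1, h2⟩
      refine ⟨h1 ▸ h2, ?_⟩
      rw [Subgroup.mem_bot, mul_inv_eq_one]
      exact h1
    · intro h
      exact ⟨(hbot x h).1, (hbot x h).2.1⟩
  have h0le : ∀ i, S 0 ≤ S i := by
    intro i x hx
    rw [hS] at hx ⊢
    obtain ⟨h1, h2, h3⟩ := hbot x hx
    have h5 : x.1.1 * x.1.2⁻¹ = 1 := by rw [h1, mul_inv_cancel]
    fin_cases i
    · exact hx
    · exact ⟨h3, by rw [h5]; exact A.one_mem⟩
    · exact ⟨h3, by rw [h5]; exact B.one_mem⟩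
    · exact ⟨h3, by rw [h5]; exact (T ⊓ Q0).one_mem⟩
    · exact ⟨h3, by rw [h5]; exact T.one_mem⟩
    · exact h2
    · exact h1
    · trivial
  have h7le : ∀ i, S i ≤ S 7 := fun i x _ => (hS 7 x).2 trivial
  have h13 : S 1 ≤ S 3 := fun x hx => by
    rw [hS] at hx ⊢
    exact ⟨hx.1, hA hx.2⟩
  have h23 : S 2 ≤ S 3 := fun x hx => by
    rw [hS] at hx ⊢
    exact ⟨hx.1, hB hx.2⟩
  have h34 : S 3 ≤ S 4 := fun x hx => by
    rw [hS] at hx ⊢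
    exact ⟨hx.1, hx.2.1⟩
  have h35 : S 3 ≤ S 5 := fun x hx => by
    rw [hS] at hx ⊢
    have h := Q0.mul_mem hx.2.2 hx.1
    have e : x.1.1 * x.1.2⁻¹ * x.1.2 = x.1.1 := by group
    rw [e] at h
    exact h
  have hle : ∀ i j, rel i j → S i ≤ S j := by
    intro i j h
    rcases h with h | h | h | h
    · rw [Fin.ext h]
    · have : i = 0 := Fin.ext h
      rw [this]; exact h0le j
    · have : j = 7 := Fin.ext h
      rw [this]; exact h7le i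
    · simp only [exc3, List.mem_cons, Prod.mk.injEq, List.not_mem_nil, or_false] at h
      rcases h with ⟨h1, h2⟩ | ⟨h1, h2⟩ | ⟨h1, h2⟩ | ⟨h1, h2⟩ | ⟨h1, h2⟩ | ⟨h1, h2⟩ | ⟨h1, h2⟩ |
        ⟨h1, h2⟩
      · rw [show i = 1 from Fin.ext h1, show j = 3 from Fin.ext h2]; exact h13
      · rw [show i = 1 from Fin.ext h1, show j = 4 from Fin.ext h2]; exact h13.trans h34
      · rw [show i = 1 from Fin.ext h1, show j = 5 from Fin.ext h2]; exact h13.trans h35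
      · rw [show i = 2 from Fin.ext h1, show j = 3 from Fin.ext h2]; exact h23
      · rw [show i = 2 from Fin.ext h1, show j = 4 from Fin.ext h2]; exact h23.trans h34
      · rw [show i = 2 from Fin.ext h1, show j = 5 from Fin.ext h2]; exact h23.trans h35
      · rw [show i = 3 from Fin.ext h1, show j = 4 from Fin.ext h2]; exact h34
      · rw [show i = 3 from Fin.ext h1, show j = 5 from Fin.ext h2]; exact h35
  have hiff : ∀ i j, S i ≤ S j ↔ rel i j := by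
    intro i j
    refine ⟨fun h => tab_rel i j fun w hwi => ?_, hle i j⟩
    rw [← hw] at hwi ⊢
    exact h hwi
  have hinj : Function.Injective S := by
    intro i j h
    exact rel_antisymm i j ((hiff i j).1 h.le) ((hiff j i).1 h.ge)
  have hsurj : ∀ X : Subgroup (Fi T), Dg T Q0 ≤ X → ∃ i, S i = X := by
    intro X hX
    have h := hcl X hX
    rcases h with h | h | h | h | h | h | h | h
    · exact ⟨0, by ext x; rw [hS, h]; exact Iff.rfl⟩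
    · exact ⟨1, by ext x; rw [hS, h]; exact Iff.rfl⟩
    · exact ⟨2, by ext x; rw [hS, h]; exact Iff.rfl⟩
    · exact ⟨3, by ext x; rw [hS, h]; exact Iff.rfl⟩
    · exact ⟨4, by ext x; rw [hS, h]; exact Iff.rfl⟩
    · exact ⟨5, by ext x; rw [hS, h]; exact Iff.rfl⟩
    · exact ⟨6, by ext x; rw [hS, h]; exact Iff.rfl⟩
    · exact ⟨7, by ext x; rw [hS]; exact iff_of_true trivial (h x)⟩
  let f : Fin 8 → {S : Subgroup (Fi T) // Dg T Q0 ≤ S} :=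
    fun i => ⟨S i, h0.le.trans (h0le i)⟩
  have hf : Function.Bijective f := by
    constructor
    · intro i j h
      exact hinj (congrArg Subtype.val h)
    · rintro ⟨X, hX⟩
      obtain ⟨i, hi⟩ := hsurj X hX
      exact ⟨i, Subtype.ext hi⟩
  exact ⟨{ toEquiv := Equiv.ofBijective f hf
           map_rel_iff' := fun {i j} => hiff i j }⟩

end Vale.Agent.P183.H287
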