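import Vale.Agent.P183.H552.U3
import Mathlib.Tactic.FinCases
import Mathlib.Tactic.LinearCombination

/-!
The stabiliser and one transposition generate the group.
-/

set_option autoImplicit false
set_option linter.all false

namespace Vale.Agent.P183.H287

open Matrix Vale.Agent.P183.H552

/-- The norm. -/
def N (x : F16) : F16 := x * F16.cj x

theorem N_mul (x y : F16) : N (x * y) = N x * N y := by
  unfold N; rw [map_mul]; ring

theorem N_cj (x : F16) : N (F16.cj x) = N x := by
  unfold N; rw [F16.cj_cj, mul_comm]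

theorem N_inv : ∀ x : F16, x ≠ 0 → N x⁻¹ * N x = 1 := by decide +kernel

/-- The permutation matrix of the coordinates `0` and `1`. -/
def tt : U where
  m := !![0, 1, 0; 1, 0, 0; 0, 0, 1]
  b := false
  h := by decide +kernel
  dt := by decide +kernel

/-- The permutation matrix of the coordinates `1` and `2`. -/
def t12 : U where
  m := !![1, 0, 0; 0, 0, 1; 0, 1, 0]
  b := false
  h := by decide +kernel
  dt := by decide +kernel

theorem two_eq (x y : F16) : x * y + y * x = 0 := by
  rw [mul_comm y x]; exact F16.add_self _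

/-- The elements of the special unitary group on the coordinates `1` and `2`. -/
def su (x y : F16) (h : N x + N y = 1) : U where
  m := !![1, 0, 0; 0, x, y; 0, F16.cj y, F16.cj x]
  b := false
  h := by
    have h1 : x * F16.cj x + y * F16.cj y = 1 := h
    have h2 : F16.cj y * y + F16.cj x * x = 1 := by rw [← h1]; ring
    refine Matrix.ext fun i j => ?_
    fin_cases i <;> fin_cases j <;>
      simp [Matrix.mul_apply, Fin.sum_univ_three, h1, h2, two_eq]
  dt := by
    have h1 : x * F16.cj x + y * F16.cj y = 1 := h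
    rw [Matrix.det_fin_three]
    simp
    rw [← h1, sub_eq_add_neg, F16.neg_eq]

/-- The first columns of the elements of `K`. -/
def InS (K : Subgroup U) (a b c : F16) : Prop :=
  ∃ g ∈ K, g.m 0 0 = a ∧ g.m 1 0 = b ∧ g.m 2 0 = c

variable {K : Subgroup U}

theorem t12_mem : t12 ∈ QQ := by
  refine ⟨?_, ?_, ?_, ?_⟩ <;> simp [t12]

theorem su_mem {x y : F16} (h : N x + N y = 1) : su x y h ∈ QQ := by
  refine ⟨?_, ?_, ?_, ?_⟩ <;> simp [su]

theorem swap01 (ht : tt ∈ K) {a b c : F16} (h : InS K a b c) : InS K b a c := by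
  obtain ⟨g, hg, h1, h2, h3⟩ := h
  refine ⟨tt * g, K.mul_mem ht hg, ?_, ?_, ?_⟩ <;>
    simp [tt, Matrix.mul_apply, Fin.sum_univ_three, h1, h2, h3]

theorem swap12 (hK : QQ ≤ K) {a b c : F16} (h : InS K a b c) : InS K a c b := by
  obtain ⟨g, hg, h1, h2, h3⟩ := h
  refine ⟨t12 * g, K.mul_mem (hK t12_mem) hg, ?_, ?_, ?_⟩ <;>
    simp [t12, Matrix.mul_apply, Fin.sum_univ_three, h1, h2, h3]

theorem rot (hK : QQ ≤ K) {a b c x y : F16} (hxy : N x + N y = 1) (h : InS K a b c) :
    InS K a (x * b + y * c) (F16.cj y * b + F16.cj x * c) := by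
  obtain ⟨g, hg, h1, h2, h3⟩ := h
  refine ⟨su x y hxy * g, K.mul_mem (hK (su_mem hxy)) hg, ?_, ?_, ?_⟩ <;>
    simp [su, Matrix.mul_apply, Fin.sum_univ_three, h1, h2, h3]

theorem rot01 (hK : QQ ≤ K) (ht : tt ∈ K) {a b c x y : F16} (hxy : N x + N y = 1)
    (h : InS K a b c) : InS K (x * a + y * b) (F16.cj y * a + F16.cj x * b) c :=
  swap12 hK (swap01 ht (rot hK hxy (swap01 ht (swap12 hK h))))

theorem spread (hK : QQ ≤ K) {a b c d : F16} (hd : d ≠ 0) (hn : N d = N b + N c)
    (h : InS K a d 0) : InS K a b c := by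
  have h1 : N (b * d⁻¹) + N (F16.cj (c * d⁻¹)) = 1 := by
    rw [N_cj, N_mul, N_mul, ← add_mul, ← hn, mul_comm]
    exact N_inv d hd
  have h2 := rot hK h1 h
  have e1 : b * d⁻¹ * d + F16.cj (c * d⁻¹) * 0 = b := by
    rw [mul_assoc, inv_mul_cancel₀ hd]; ring
  have e2 : F16.cj (F16.cj (c * d⁻¹)) * d + F16.cj (b * d⁻¹) * 0 = c := by
    rw [F16.cj_cj, mul_assoc, inv_mul_cancel₀ hd]; ring
  rw [e1, e2] at h2
  exact h2

theorem exists_d : ∀ b c : F16, N b + N c ≠ 0 → ∃ d : F16, d ≠ 0 ∧ N d = N b + N c := by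
  decide +kernel

theorem exists_xy : ∀ a b : F16, N a = 1 → N b = 1 →
    ∃ x y : F16, N x + N y = 1 ∧ N (x * a + y * b) ≠ 1 := by
  decide +kernel

theorem pair_case (hK : QQ ≤ K) (ht : tt ∈ K) {a b : F16} (h : N a + N b = 1) :
    InS K a b 0 := by
  have h0 : InS K 1 0 0 := ⟨1, K.one_mem, by simp, by simp, by simp⟩
  have h1 : InS K 0 1 0 := swap01 ht h0
  have h2 : InS K 0 a b := spread hK one_ne_zero (by rw [h]; decide) h1
  exact swap12 hK (swap01 ht h2)

theorem gen_case (hK : QQ ≤ K) (ht : tt ∈ K) {a b c : F16} (h : N a + N b + N c = 1)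
    (ha : N a ≠ 1) : InS K a b c := by
  have hn : N b + N c ≠ 0 := by
    intro h0
    apply ha
    rw [add_assoc, h0, add_zero] at h
    exact h
  obtain ⟨d, hd, hd'⟩ := exists_d b c hn
  exact spread hK hd hd' (pair_case hK ht (by rw [hd', ← add_assoc, h]))

theorem all_cols (hK : QQ ≤ K) (ht : tt ∈ K) {a b c : F16} (h : N a + N b + N c = 1) :
    InS K a b c := by
  by_cases ha : N a = 1
  · by_cases hb : N b = 1
    · obtain ⟨x, y, hxy, hx⟩ := exists_xy a b ha hb
      have h0 : x * F16.cj x + y * F16.cj y = 1 := hxy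
      have h1 : InS K (x * a + y * b) (F16.cj y * a + F16.cj x * b) c := by
        refine gen_case hK ht ?_ hx
        have e : N (x * a + y * b) + N (F16.cj y * a + F16.cj x * b) = N a + N b := by
          unfold N
          simp only [map_add, map_mul, F16.cj_cj]
          have t1 := F16.add_self (x * F16.cj y * (a * F16.cj b))
          have t2 := F16.add_self (y * F16.cj x * (b * F16.cj a))
          linear_combination (a * F16.cj a + b * F16.cj b) * h0 + t1 + t2
        rw [e]
        exact h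
      have hxy' : N (F16.cj x) + N y = 1 := by rw [N_cj]; exact hxy
      have h2 := rot01 hK ht hxy' h1
      have e1 : F16.cj x * (x * a + y * b) + y * (F16.cj y * a + F16.cj x * b) = a := by
        have t1 := F16.add_self (y * F16.cj x * b)
        linear_combination a * h0 + t1
      have e2 : F16.cj y * (x * a + y * b) + F16.cj (F16.cj x) * (F16.cj y * a + F16.cj x * b)
          = b := by
        rw [F16.cj_cj]
        have t1 := F16.add_self (x * F16.cj y * a)
        linear_combination b * h0 + t1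
      rw [e1, e2] at h2
      exact h2
    · exact swap01 ht (gen_case hK ht (by rw [← h]; ring) hb)
  · exact gen_case hK ht h ha

theorem QQ_of_col {x : U} (h1 : x.m 1 0 = 0) (h2 : x.m 2 0 = 0) : x ∈ QQ := by
  have e0 := congrFun (congrFun x.h' 0) 0
  have e1 := congrFun (congrFun x.h' 0) 1
  have e2 := congrFun (congrFun x.h' 0) 2
  simp [Matrix.mul_apply, Fin.sum_univ_three, h1, h2] at e0 e1 e2
  have hne : F16.cj (x.m 0 0) ≠ 0 := fun h => by rw [h, zero_mul] at e0; exact zero_ne_one e0
  have hne' : x.m 0 0 ≠ 0 := fun h => by rw [h, mul_zero] at e0; exact zero_ne_one e0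
  refine ⟨h1, h2, ?_, ?_⟩
  · rcases e1 with h | h
    · exact absurd h hne'
    · exact h
  · rcases e2 with h | h
    · exact absurd h hne'
    · exact h

/-- The stabiliser and the transposition generate the group. -/
theorem top_of_t (K : Subgroup U) (hK : QQ ≤ K) (ht : tt ∈ K) : K = ⊤ := by
  rw [eq_top_iff]
  intro g _
  have hg : N (g.m 0 0) + N (g.m 1 0) + N (g.m 2 0) = 1 := by
    have e := congrFun (congrFun g.h' 0) 0
    simp only [Matrix.mul_apply, Fin.sum_univ_three, st_apply, Matrix.one_apply_eq] at e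
    unfold N
    rw [← e]; ring
  obtain ⟨k, hk, h1, h2, h3⟩ := all_cols hK ht hg
  have e1 : ∀ i, (k⁻¹ * g).m i 0 = cb k.b ((st k.m * k.m) i 0) := by
    intro i
    simp only [U.mul_m, U.inv_m, U.inv_b, mc_apply, Matrix.mul_apply,
      Fin.sum_univ_three, h1, h2, h3, map_add, map_mul]
  have hq : k⁻¹ * g ∈ QQ := by
    apply QQ_of_col
    · rw [e1, k.h']; simp
    · rw [e1, k.h']; simp
  have : g = k * (k⁻¹ * g) := by group
  rw [this]
  exact K.mul_mem hk (hK hq)

end Vale.Agent.P183.H287
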