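import Vale.Agent.P183.H552.HC
import Mathlib.Tactic.FinCases
import Mathlib.Tactic.LinearCombination
import Mathlib.Order.Atoms

/-!
The stabiliser `Q0` is maximal in `SU_3(4) : 2`.
-/

set_option autoImplicit false
set_option linter.all false

namespace Vale.Agent.P183.H287

open Matrix Vale.Agent.P183.H552 QU

namespace Mx

/-- The norm. -/
def N (x : F16) : F16 := x * F16.cj x

/-- The inverse. -/
def iv (x : F16) : F16 := F16.cj x * F16.cj x * F16.cj x * x * x

theorem cj_add (x y : F16) : F16.cj (x + y) = F16.cj x + F16.cj y := F16.cj_add x y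
theorem cj_mul (x y : F16) : F16.cj (x * y) = F16.cj x * F16.cj y := F16.cj_mul x y
theorem cj_cj (x : F16) : F16.cj (F16.cj x) = x := F16.cj_cj x

theorem add_self' : ∀ x : F16, x + x = 0 := by decide +kernel
theorem exists_iv : ∀ x : F16, x ≠ 0 → ∃ y : F16, x * y = 1 := by decide +kernel
theorem N_mul (x y : F16) : N (x * y) = N x * N y := by
  unfold N; rw [cj_mul]; ring
theorem N_cj (x : F16) : N (F16.cj x) = N x := by
  unfold N; rw [cj_cj, mul_comm]
theorem N_one : N 1 = 1 := by decide +kernel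
theorem N_zero : N 0 = 0 := by decide +kernel
theorem N_eq_zero : ∀ x : F16, N x = 0 → x = 0 := by decide +kernel
theorem N_sf (b : Bool) (x : F16) : N (sf b x) = N x := by
  cases b
  · rfl
  · exact N_cj x
theorem cj_N (x : F16) : F16.cj (N x) = N x := by
  unfold N; rw [cj_mul, cj_cj, mul_comm]

theorem cj_zero : F16.cj 0 = 0 := by decide +kernel
theorem cj_one : F16.cj 1 = 1 := by decide +kernel

theorem two_eq (x y : F16) : x * y + y * x = 0 := by
  rw [mul_comm y x]; exact add_self' _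

/-- The permutation matrix of the coordinates `0` and `1`. -/
def t01 : QU where
  m := !![0, 1, 0; 1, 0, 0; 0, 0, 1]
  b := false
  uni := by refine Matrix.ext fun i j => ?_; fin_cases i <;> fin_cases j <;> decide +kernel
  det := by rw [Matrix.det_fin_three]; decide +kernel

/-- The elements of the special unitary group on the coordinates `0` and `1`. -/
def su (x y : F16) (h : N x + N y = 1) : QU where
  m := !![x, y, 0; F16.cj y, F16.cj x, 0; 0, 0, 1]
  b := false
  uni := by
    have h1 : x * F16.cj x + y * F16.cj y = 1 := h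
    have h2 : F16.cj y * y + F16.cj x * x = 1 := by rw [← h1]; ring
    refine Matrix.ext fun i j => ?_
    fin_cases i <;> fin_cases j <;>
      simp [Matrix.mul_apply, Fin.sum_univ_three, Matrix.conjTranspose_apply, F16.star_eq, h1, h2,
        two_eq, cj_cj, cj_zero, cj_one]
  det := by
    have h1 : x * F16.cj x + y * F16.cj y = 1 := h
    have h3 := add_self' (y * F16.cj y)
    rw [Matrix.det_fin_three]
    simp
    linear_combination h1 - h3

/-- The last columns of the elements of `K`. -/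
def InS (K : Subgroup QU) (a b c : F16) : Prop :=
  ∃ g ∈ K, g.m 2 2 = a ∧ g.m 0 2 = b ∧ g.m 1 2 = c

variable {K : Subgroup QU}

theorem t01_mem : t01 ∈ Q0 := by
  refine ⟨?_, ?_, ?_, ?_⟩ <;> simp [t01]

theorem su_mem {x y : F16} (h : N x + N y = 1) : su x y h ∈ Q0 := by
  refine ⟨?_, ?_, ?_, ?_⟩ <;> simp [su]

theorem swap01 (ht : tt ∈ K) {a b c : F16} (h : InS K a b c) : InS K b a c := by
  obtain ⟨g, hg, h1, h2, h3⟩ := h
  refine ⟨tt * g, K.mul_mem ht hg, ?_, ?_, ?_⟩ <;>
    simp [tt, ttm, mul_m, tw_apply, sf_false, Matrix.mul_apply, Fin.sum_univ_three, h1, h2, h3]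

theorem swap12 (hK : Q0 ≤ K) {a b c : F16} (h : InS K a b c) : InS K a c b := by
  obtain ⟨g, hg, h1, h2, h3⟩ := h
  refine ⟨t01 * g, K.mul_mem (hK t01_mem) hg, ?_, ?_, ?_⟩ <;>
    simp [t01, mul_m, tw_apply, sf_false, Matrix.mul_apply, Fin.sum_univ_three, h1, h2, h3]

theorem rot (hK : Q0 ≤ K) {a b c x y : F16} (hxy : N x + N y = 1) (h : InS K a b c) :
    InS K a (x * b + y * c) (F16.cj y * b + F16.cj x * c) := by
  obtain ⟨g, hg, h1, h2, h3⟩ := h
  refine ⟨su x y hxy * g, K.mul_mem (hK (su_mem hxy)) hg, ?_, ?_, ?_⟩ <;>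
    simp [su, mul_m, tw_apply, sf_false, Matrix.mul_apply, Fin.sum_univ_three, h1, h2, h3]

theorem rot01 (hK : Q0 ≤ K) (ht : tt ∈ K) {a b c x y : F16} (hxy : N x + N y = 1)
    (h : InS K a b c) : InS K (x * a + y * b) (F16.cj y * a + F16.cj x * b) c :=
  swap12 hK (swap01 ht (rot hK hxy (swap01 ht (swap12 hK h))))

theorem spread (hK : Q0 ≤ K) {a b c d : F16} (hd : d ≠ 0) (hn : N d = N b + N c)
    (h : InS K a d 0) : InS K a b c := by
  obtain ⟨e, he⟩ := exists_iv d hd
  have hNe : N d * N e = 1 := by rw [← N_mul, he]; exact N_one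
  have h1 : N (b * e) + N (F16.cj (c * e)) = 1 := by
    rw [N_cj, N_mul, N_mul, ← add_mul, ← hn]
    exact hNe
  have h2 := rot hK h1 h
  have e1 : b * e * d + F16.cj (c * e) * 0 = b := by
    linear_combination b * he
  have e2 : F16.cj (F16.cj (c * e)) * d + F16.cj (b * e) * 0 = c := by
    rw [cj_cj]
    linear_combination c * he
  rw [e1, e2] at h2
  exact h2

theorem exists_d : ∀ b c : F16, N b + N c ≠ 0 → ∃ d : F16, d ≠ 0 ∧ N d = N b + N c := by
  decide +kernel

theorem exists_xy : ∀ a b : F16, N a = 1 → N b = 1 →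
    ∃ x y : F16, N x + N y = 1 ∧ N (x * a + y * b) ≠ 1 := by
  decide +kernel

theorem pair_case (hK : Q0 ≤ K) (ht : tt ∈ K) {a b : F16} (h : N a + N b = 1) :
    InS K a b 0 := by
  have h0 : InS K 1 0 0 := ⟨1, K.one_mem, by simp [one_m], by simp [one_m], by simp [one_m]⟩
  have h1 : InS K 0 1 0 := swap01 ht h0
  have h2 : InS K 0 a b := spread hK (d := 1) (by decide) (by rw [h]; decide +kernel) h1
  exact swap12 hK (swap01 ht h2)

theorem gen_case (hK : Q0 ≤ K) (ht : tt ∈ K) {a b c : F16} (h : N a + N b + N c = 1)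
    (ha : N a ≠ 1) : InS K a b c := by
  have hn : N b + N c ≠ 0 := by
    intro h0
    apply ha
    rw [add_assoc, h0, add_zero] at h
    exact h
  obtain ⟨d, hd, hd'⟩ := exists_d b c hn
  exact spread hK hd hd' (pair_case hK ht (by rw [hd', ← add_assoc, h]))

theorem all_cols (hK : Q0 ≤ K) (ht : tt ∈ K) {a b c : F16} (h : N a + N b + N c = 1) :
    InS K a b c := by
  by_cases ha : N a = 1
  · by_cases hb : N b = 1
    · obtain ⟨x, y, hxy, hx⟩ := exists_xy a b ha hb
      have h0 : x * F16.cj x + y * F16.cj y = 1 := hxy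
      have h1 : InS K (x * a + y * b) (F16.cj y * a + F16.cj x * b) c := by
        refine gen_case hK ht ?_ hx
        have e : N (x * a + y * b) + N (F16.cj y * a + F16.cj x * b) = N a + N b := by
          unfold N
          simp only [cj_add, cj_mul, cj_cj]
          have t1 := add_self' (x * F16.cj y * (a * F16.cj b))
          have t2 := add_self' (y * F16.cj x * (b * F16.cj a))
          linear_combination (a * F16.cj a + b * F16.cj b) * h0 + t1 + t2
        rw [e]
        exact h
      have hxy' : N (F16.cj x) + N y = 1 := by rw [N_cj]; exact hxy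
      have h2 := rot01 hK ht hxy' h1
      have e1 : F16.cj x * (x * a + y * b) + y * (F16.cj y * a + F16.cj x * b) = a := by
        have t1 := add_self' (y * F16.cj x * b)
        linear_combination a * h0 + t1
      have e2 : F16.cj y * (x * a + y * b) + F16.cj (F16.cj x) * (F16.cj y * a + F16.cj x * b)
          = b := by
        rw [cj_cj]
        have t1 := add_self' (x * F16.cj y * a)
        linear_combination b * h0 + t1
      rw [e1, e2] at h2
      exact h2
    · exact swap01 ht (gen_case hK ht (by rw [← h]; ring) hb)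
  · exact gen_case hK ht h ha

theorem Q0_of_col {x : QU} (h1 : x.m 0 2 = 0) (h2 : x.m 1 2 = 0) : x ∈ Q0 := by
  have e0 := congrFun (congrFun x.uni' 2) 2
  have e1 := congrFun (congrFun x.uni' 2) 0
  have e2 := congrFun (congrFun x.uni' 2) 1
  simp [Matrix.mul_apply, Fin.sum_univ_three, Matrix.conjTranspose_apply, h1, h2] at e0 e1 e2
  have hne : x.m 2 2 ≠ 0 := fun h => by rw [h, mul_zero] at e0; exact zero_ne_one e0
  refine ⟨h1, h2, ?_, ?_⟩
  · rcases e1 with h | h
    · exact absurd h hne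
    · exact h
  · rcases e2 with h | h
    · exact absurd h hne
    · exact h

theorem same_col {g k : QU} (h1 : g.m 0 2 = k.m 0 2) (h2 : g.m 1 2 = k.m 1 2)
    (h3 : g.m 2 2 = k.m 2 2) : k⁻¹ * g ∈ Q0 := by
  have e1 : ∀ i, (k⁻¹ * g).m i 2 = sf k.b ((k.mᴴ * k.m) i 2) := by
    intro i
    simp only [mul_m, inv_m, inv_b, tw_apply, Matrix.mul_apply, Fin.sum_univ_three, h1, h2, h3,
      map_add, map_mul]
  apply Q0_of_col
  · rw [e1, k.uni']; simp
  · rw [e1, k.uni']; simp

theorem col_norm (g : QU) : N (g.m 2 2) + N (g.m 0 2) + N (g.m 1 2) = 1 := by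
  have e := congrFun (congrFun g.uni' 2) 2
  simp only [Matrix.mul_apply, Fin.sum_univ_three, Matrix.conjTranspose_apply, F16.star_eq,
    Matrix.one_apply_eq] at e
  unfold N
  rw [← e]; ring

theorem row_norm (g : QU) : N (g.m 2 2) + N (g.m 2 0) + N (g.m 2 1) = 1 := by
  have e := congrFun (congrFun g.uni 2) 2
  simp only [Matrix.mul_apply, Fin.sum_univ_three, Matrix.conjTranspose_apply, F16.star_eq,
    Matrix.one_apply_eq] at e
  unfold N
  rw [← e]; ring

/-- The stabiliser and the transposition generate the group. -/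
theorem top_of_t (K : Subgroup QU) (hK : Q0 ≤ K) (ht : tt ∈ K) : K = ⊤ := by
  rw [eq_top_iff]
  intro g _
  obtain ⟨k, hk, h1, h2, h3⟩ := all_cols hK ht (col_norm g)
  have hq := same_col (g := g) (k := k) h2.symm h3.symm h1.symm
  have : g = k * (k⁻¹ * g) := by group
  rw [this]
  exact K.mul_mem hk (hK hq)

/-- Step (iii). -/
theorem t_of_zero (hK : Q0 ≤ K) {g : QU} (hg : g ∈ K) (h0 : g.m 2 2 = 0) : tt ∈ K := by
  have hn := col_norm g
  rw [h0, N_zero, zero_add] at hn
  have h1 : InS K 0 (g.m 0 2) (g.m 1 2) := ⟨g, hg, h0, rfl, rfl⟩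
  have hxy : N (F16.cj (g.m 0 2)) + N (F16.cj (g.m 1 2)) = 1 := by rw [N_cj, N_cj]; exact hn
  obtain ⟨k, hk, k1, k2, k3⟩ := rot hK hxy h1
  have e2 : k.m 0 2 = 1 := by
    rw [k2, ← hn]; unfold N; ring
  have e3 : k.m 1 2 = 0 := by
    rw [k3, cj_cj, cj_cj]
    exact (by rw [mul_comm]; exact add_self' _)
  have hq := same_col (g := tt) (k := k) (by rw [e2]; rfl) (by rw [e3]; rfl) (by rw [k1]; rfl)
  have : tt = k * (k⁻¹ * tt) := by group
  rw [this]
  exact K.mul_mem hk (hK hq)

/-- The corner of a product `g q g`. -/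
theorem corner (g q : QU) (hq : q.b = false) {a d : F16}
    (h0 : (q * g).m 0 2 = a) (h1 : (q * g).m 1 2 = d) (h2 : (q * g).m 2 2 = g.m 2 2) :
    (g * (q * g)).m 2 2 = g.m 2 0 * sf g.b a + g.m 2 1 * sf g.b d +
      g.m 2 2 * sf g.b (g.m 2 2) := by
  rw [mul_m, Matrix.mul_apply, Fin.sum_univ_three, tw_apply, tw_apply, tw_apply, h0, h1, h2]

theorem exists_norm : ∀ z : F16, F16.cj z = z → ∃ β : F16, N β = z := by decide +kernel

theorem cj_inv : ∀ n e : F16, F16.cj n = n → n * e = 1 → F16.cj e = e := by decide +kernel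

theorem move : ∀ c u v : F16, N c = 1 → N u = N v → u ≠ 0 →
    ∃ m : F16, N m = 1 ∧ N (m * u + F16.cj m * v + c) ≠ 1 := by decide +kernel

/-- The special unitary group is transitive on the vectors of a given norm. -/
theorem trans {w0 w1 a d : F16} (h : N a + N d = N w0 + N w1) (h0 : N w0 + N w1 ≠ 0) :
    ∃ x y : F16, N x + N y = 1 ∧ x * w0 + y * w1 = a ∧ F16.cj y * w0 + F16.cj x * w1 = d := by
  obtain ⟨e, he⟩ := exists_iv _ h0
  have hcn : F16.cj (N w0 + N w1) = N w0 + N w1 := by rw [cj_add, cj_N, cj_N]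
  have hce : F16.cj e = e := cj_inv _ _ hcn he
  have he' : (w0 * F16.cj w0 + w1 * F16.cj w1) * e = 1 := he
  have h' : a * F16.cj a + d * F16.cj d = w0 * F16.cj w0 + w1 * F16.cj w1 := h
  refine ⟨(a * F16.cj w0 + F16.cj d * w1) * e, (F16.cj d * w0 + a * F16.cj w1) * e, ?_, ?_, ?_⟩
  · unfold N
    simp only [cj_add, cj_mul, cj_cj, hce]
    have t1 := add_self' (a * d * F16.cj w0 * F16.cj w1 * e * e)
    have t2 := add_self' (F16.cj a * F16.cj d * w0 * w1 * e * e)
    linear_combination t1 + t2 + (w0 * F16.cj w0 + w1 * F16.cj w1) * e * e * h' +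
      ((w0 * F16.cj w0 + w1 * F16.cj w1) * e + 1) * he'
  · have t1 := add_self' (F16.cj d * w0 * w1 * e)
    linear_combination t1 + a * he'
  · simp only [cj_add, cj_mul, cj_cj, hce]
    have t1 := add_self' (F16.cj a * w0 * w1 * e)
    linear_combination t1 + d * he'

theorem sf_sf' (b : Bool) (x : F16) : sf b (sf b x) = x := by
  rw [sf_sf, Bool.xor_self]; rfl

/-- The target of step (i). -/
theorem target (b : Bool) {r0 r1 x : F16} (h : N x + N r0 + N r1 = 1) (h0 : N r0 + N r1 ≠ 0) :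
    ∃ a d : F16, N a + N d = N r0 + N r1 ∧ r0 * sf b a + r1 * sf b d + x * sf b x = 0 := by
  obtain ⟨e, he⟩ := exists_iv _ h0
  set α := x * sf b x * e with hα
  obtain ⟨β, hβ⟩ := exists_norm (1 + N α) (by rw [cj_add, cj_one, cj_N])
  have hαβ : α * F16.cj α + β * F16.cj β = 1 := by
    have t := add_self' (N α)
    have h1 : N β = 1 + N α := hβ
    unfold N at h1 t
    linear_combination h1 + t
  have he' : (r0 * F16.cj r0 + r1 * F16.cj r1) * e = 1 := he
  refine ⟨sf b (α * F16.cj r0 + β * r1), sf b (α * F16.cj r1 + β * r0), ?_, ?_⟩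
  · rw [N_sf, N_sf]
    unfold N
    simp only [cj_add, cj_mul, cj_cj]
    have t1 := add_self' (α * F16.cj β * F16.cj r0 * F16.cj r1)
    have t2 := add_self' (β * F16.cj α * r0 * r1)
    linear_combination t1 + t2 + (r0 * F16.cj r0 + r1 * F16.cj r1) * hαβ
  · rw [sf_sf', sf_sf']
    have t1 := add_self' (β * r0 * r1)
    have t2 := add_self' (x * sf b x)
    rw [hα] at *
    linear_combination t1 + t2 + x * sf b x * he'

/-- Steps (i) and (iii). -/
theorem t_of_ne (hK : Q0 ≤ K) {g : QU} (hg : g ∈ K) (h0 : N (g.m 2 2) ≠ 1) : tt ∈ K := by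
  have hc := col_norm g
  have hr := row_norm g
  have hc0 : N (g.m 0 2) + N (g.m 1 2) ≠ 0 := by
    intro h
    apply h0
    rw [add_assoc, h, add_zero] at hc
    exact hc
  have hrc : N (g.m 2 0) + N (g.m 2 1) = N (g.m 0 2) + N (g.m 1 2) := by
    have t := add_self' (N (g.m 2 2))
    linear_combination hr - hc
  obtain ⟨a, d, h1, h2⟩ := target g.b hr (by rw [hrc]; exact hc0)
  obtain ⟨x, y, hxy, e1, e2⟩ := trans (w0 := g.m 0 2) (w1 := g.m 1 2) (h1.trans hrc) hc0
  have hmem : g * (su x y hxy * g) ∈ K :=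
    K.mul_mem hg (K.mul_mem (hK (su_mem hxy)) hg)
  refine t_of_zero hK hmem ?_
  rw [corner g (su x y hxy) rfl (a := a) (d := d) ?_ ?_ ?_]
  · exact h2
  · rw [← e1]
    simp [su, mul_m, tw_apply, sf_false, Matrix.mul_apply, Fin.sum_univ_three]
  · rw [← e2]
    simp [su, mul_m, tw_apply, sf_false, Matrix.mul_apply, Fin.sum_univ_three]
  · simp [su, mul_m, tw_apply, sf_false, Matrix.mul_apply, Fin.sum_univ_three]

theorem eq_of_add {x y : F16} (h : x + y = 0) : x = y := by
  have t := add_self' y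
  linear_combination h - t

theorem sf_cj (b : Bool) (x : F16) : sf b (F16.cj x) = F16.cj (sf b x) := by
  cases b <;> rfl

/-- All steps. -/
theorem t_mem (hK : Q0 ≤ K) {g : QU} (hg : g ∈ K) (hg0 : g ∉ Q0) : tt ∈ K := by
  by_cases h0 : N (g.m 2 2) = 1
  · have hc := col_norm g
    have hr := row_norm g
    have hc' : N (g.m 0 2) + N (g.m 1 2) = 0 := by linear_combination hc - h0
    have hr' : N (g.m 2 0) + N (g.m 2 1) = 0 := by linear_combination hr - h0
    have hw : g.m 0 2 ≠ 0 := by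
      intro h
      have h1 : N (g.m 1 2) = 0 := by rw [h, N_zero, zero_add] at hc'; exact hc'
      exact hg0 (Q0_of_col h (N_eq_zero _ h1))
    have hrow : g.m 2 0 ≠ 0 := by
      intro h
      have h1 : N (g.m 2 1) = 0 := by rw [h, N_zero, zero_add] at hr'; exact hr'
      have h2 := N_eq_zero _ h1
      have e0 := congrFun (congrFun g.uni 0) 2
      simp [Matrix.mul_apply, Fin.sum_univ_three, Matrix.conjTranspose_apply, h, h2] at e0
      rcases e0 with h3 | h3
      · exact hw h3
      · rw [h3, N_zero] at h0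
        exact zero_ne_one h0
    have hcN : N (g.m 2 2 * sf g.b (g.m 2 2)) = 1 := by
      rw [N_mul, N_sf, h0, one_mul]
    have huv : N (g.m 2 0 * sf g.b (g.m 0 2)) = N (g.m 2 1 * sf g.b (g.m 1 2)) := by
      rw [N_mul, N_mul, N_sf, N_sf, eq_of_add hc', eq_of_add hr']
    have hu : g.m 2 0 * sf g.b (g.m 0 2) ≠ 0 := by
      intro h
      rcases mul_eq_zero.1 h with h1 | h1
      · exact hrow h1
      · apply hw
        have : sf g.b (sf g.b (g.m 0 2)) = 0 := by rw [h1, map_zero]
        rwa [sf_sf'] at this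
    obtain ⟨m', hm', hne⟩ := move _ _ _ hcN huv hu
    have hm : N (sf g.b m') + N 0 = 1 := by rw [N_sf, N_zero, add_zero]; exact hm'
    have hmem : g * (su (sf g.b m') 0 hm * g) ∈ K :=
      K.mul_mem hg (K.mul_mem (hK (su_mem hm)) hg)
    refine t_of_ne hK hmem ?_
    rw [corner g (su (sf g.b m') 0 hm) rfl (a := sf g.b m' * g.m 0 2)
      (d := F16.cj (sf g.b m') * g.m 1 2) ?_ ?_ ?_]
    · rw [map_mul, map_mul, sf_sf', sf_cj, sf_sf']
      have e : g.m 2 0 * (m' * sf g.b (g.m 0 2)) + g.m 2 1 * (F16.cj m' * sf g.b (g.m 1 2)) +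
          g.m 2 2 * sf g.b (g.m 2 2) = m' * (g.m 2 0 * sf g.b (g.m 0 2)) +
          F16.cj m' * (g.m 2 1 * sf g.b (g.m 1 2)) + g.m 2 2 * sf g.b (g.m 2 2) := by ring
      rw [e]
      exact hne
    · simp [su, mul_m, tw_apply, sf_false, Matrix.mul_apply, Fin.sum_univ_three]
    · simp [su, mul_m, tw_apply, sf_false, Matrix.mul_apply, Fin.sum_univ_three, cj_zero]
    · simp [su, mul_m, tw_apply, sf_false, Matrix.mul_apply, Fin.sum_univ_three]
  · exact t_of_ne hK hg h0

end Mx

/-- The stabiliser is a maximal subgroup. -/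
theorem hmax : IsCoatom Q0 := by
  constructor
  · intro h
    have h1 : tt ∈ Q0 := by rw [h]; trivial
    have h2 := h1.1
    exact absurd h2 (by decide +kernel)
  · intro K hK
    obtain ⟨g, hg, hg0⟩ := SetLike.exists_of_lt hK
    exact Mx.top_of_t K hK.le (Mx.t_mem hK.le hg hg0)

end Vale.Agent.P183.H287
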