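import Vale.Agent.P183.H287.Top
import Mathlib.Order.Atoms

/-!
The stabiliser `QQ` is maximal in `SU_3(4) : 2`.
-/

set_option autoImplicit false
set_option linter.all false

namespace Vale.Agent.P183.H287

open Matrix Vale.Agent.P183.H552

namespace Mz

variable {K : Subgroup U}

theorem exists_iv : ∀ x : F16, x ≠ 0 → ∃ y : F16, x * y = 1 := by decide +kernel
theorem N_one : N 1 = 1 := by decide +kernel
theorem N_zero : N 0 = 0 := by decide +kernel
theorem N_eq_zero : ∀ x : F16, N x = 0 → x = 0 := by decide +kernel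
theorem N_cb (b : Bool) (x : F16) : N (cb b x) = N x := by
  cases b
  · rfl
  · exact N_cj x
theorem cj_N (x : F16) : F16.cj (N x) = N x := by
  unfold N; rw [map_mul, F16.cj_cj, mul_comm]

theorem same_col {g k : U} (h1 : g.m 0 0 = k.m 0 0) (h2 : g.m 1 0 = k.m 1 0)
    (h3 : g.m 2 0 = k.m 2 0) : k⁻¹ * g ∈ QQ := by
  have e1 : ∀ i, (k⁻¹ * g).m i 0 = cb k.b ((st k.m * k.m) i 0) := by
    intro i
    simp only [U.mul_m, U.inv_m, U.inv_b, mc_apply, Matrix.mul_apply,
      Fin.sum_univ_three, h1, h2, h3, map_add, map_mul]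
  apply QQ_of_col
  · rw [e1, k.h']; simp
  · rw [e1, k.h']; simp

theorem col_norm (g : U) : N (g.m 0 0) + N (g.m 1 0) + N (g.m 2 0) = 1 := by
  have e := congrFun (congrFun g.h' 0) 0
  simp only [Matrix.mul_apply, Fin.sum_univ_three, st_apply, Matrix.one_apply_eq] at e
  unfold N
  rw [← e]; ring

theorem row_norm (g : U) : N (g.m 0 0) + N (g.m 0 1) + N (g.m 0 2) = 1 := by
  have e := congrFun (congrFun g.h 0) 0
  simp only [Matrix.mul_apply, Fin.sum_univ_three, st_apply, Matrix.one_apply_eq] at e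
  unfold N
  rw [← e]

/-- The corner of a product `g q g`. -/
theorem corner (g q : U) {a d : F16}
    (h0 : (q * g).m 1 0 = a) (h1 : (q * g).m 2 0 = d) (h2 : (q * g).m 0 0 = g.m 0 0) :
    (g * (q * g)).m 0 0 = g.m 0 1 * cb g.b a + g.m 0 2 * cb g.b d +
      g.m 0 0 * cb g.b (g.m 0 0) := by
  rw [U.mul_m, Matrix.mul_apply, Fin.sum_univ_three, mc_apply, mc_apply, mc_apply, h0, h1, h2]
  ring

theorem exists_norm : ∀ z : F16, F16.cj z = z → ∃ β : F16, N β = z := by decide +kernel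

theorem cj_inv : ∀ n e : F16, F16.cj n = n → n * e = 1 → F16.cj e = e := by decide +kernel

theorem move : ∀ c u v : F16, N c = 1 → N u = N v → u ≠ 0 →
    ∃ m : F16, N m = 1 ∧ N (m * u + F16.cj m * v + c) ≠ 1 := by decide +kernel

/-- The special unitary group is transitive on the vectors of a given norm. -/
theorem trans {w0 w1 a d : F16} (h : N a + N d = N w0 + N w1) (h0 : N w0 + N w1 ≠ 0) :
    ∃ x y : F16, N x + N y = 1 ∧ x * w0 + y * w1 = a ∧ F16.cj y * w0 + F16.cj x * w1 = d := by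
  obtain ⟨e, he⟩ := exists_iv _ h0
  have hcn : F16.cj (N w0 + N w1) = N w0 + N w1 := by rw [map_add, cj_N, cj_N]
  have hce : F16.cj e = e := cj_inv _ _ hcn he
  have he' : (w0 * F16.cj w0 + w1 * F16.cj w1) * e = 1 := he
  have h' : a * F16.cj a + d * F16.cj d = w0 * F16.cj w0 + w1 * F16.cj w1 := h
  refine ⟨(a * F16.cj w0 + F16.cj d * w1) * e, (F16.cj d * w0 + a * F16.cj w1) * e, ?_, ?_, ?_⟩
  · unfold N
    simp only [map_add, map_mul, F16.cj_cj, hce]
    have t1 := F16.add_self (a * d * F16.cj w0 * F16.cj w1 * e * e)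
    have t2 := F16.add_self (F16.cj a * F16.cj d * w0 * w1 * e * e)
    linear_combination t1 + t2 + (w0 * F16.cj w0 + w1 * F16.cj w1) * e * e * h' +
      ((w0 * F16.cj w0 + w1 * F16.cj w1) * e + 1) * he'
  · have t1 := F16.add_self (F16.cj d * w0 * w1 * e)
    linear_combination t1 + a * he'
  · simp only [map_add, map_mul, F16.cj_cj, hce]
    have t1 := F16.add_self (F16.cj a * w0 * w1 * e)
    linear_combination t1 + d * he'

theorem cb_cb' (b : Bool) (x : F16) : cb b (cb b x) = x := by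
  rw [cb_cb, Bool.xor_self]; rfl

/-- The target of step (i). -/
theorem target (b : Bool) {r0 r1 x : F16} (h0 : N r0 + N r1 ≠ 0) :
    ∃ a d : F16, N a + N d = N r0 + N r1 ∧ r0 * cb b a + r1 * cb b d + x * cb b x = 0 := by
  obtain ⟨e, he⟩ := exists_iv _ h0
  set α := x * cb b x * e with hα
  obtain ⟨β, hβ⟩ := exists_norm (1 + N α) (by rw [map_add, map_one, cj_N])
  have hαβ : α * F16.cj α + β * F16.cj β = 1 := by
    have t := F16.add_self (N α)
    have h1 : N β = 1 + N α := hβ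
    unfold N at h1 t
    linear_combination h1 + t
  have he' : (r0 * F16.cj r0 + r1 * F16.cj r1) * e = 1 := he
  refine ⟨cb b (α * F16.cj r0 + β * r1), cb b (α * F16.cj r1 + β * r0), ?_, ?_⟩
  · rw [N_cb, N_cb]
    unfold N
    simp only [map_add, map_mul, F16.cj_cj]
    have t1 := F16.add_self (α * F16.cj β * F16.cj r0 * F16.cj r1)
    have t2 := F16.add_self (β * F16.cj α * r0 * r1)
    linear_combination t1 + t2 + (r0 * F16.cj r0 + r1 * F16.cj r1) * hαβ
  · rw [cb_cb', cb_cb']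
    have t1 := F16.add_self (β * r0 * r1)
    have t2 := F16.add_self (x * cb b x)
    rw [hα] at *
    linear_combination t1 + t2 + x * cb b x * he'

theorem zero_of_ne (hK : QQ ≤ K) {g : U} (hg : g ∈ K) (h0 : N (g.m 0 0) ≠ 1) :
    ∃ g' ∈ K, g'.m 0 0 = 0 := by
  have hc := col_norm g
  have hr := row_norm g
  have hc0 : N (g.m 1 0) + N (g.m 2 0) ≠ 0 := by
    intro h
    apply h0
    rw [add_assoc, h, add_zero] at hc
    exact hc
  have hrc : N (g.m 0 1) + N (g.m 0 2) = N (g.m 1 0) + N (g.m 2 0) := by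
    linear_combination hr - hc
  obtain ⟨a, d, h1, h2⟩ := target (x := g.m 0 0) g.b (by rw [hrc]; exact hc0)
  obtain ⟨x, y, hxy, e1, e2⟩ := trans (w0 := g.m 1 0) (w1 := g.m 2 0) (h1.trans hrc) hc0
  have hmem : g * (su x y hxy * g) ∈ K :=
    K.mul_mem hg (K.mul_mem (hK (su_mem hxy)) hg)
  refine ⟨_, hmem, ?_⟩
  rw [corner g (su x y hxy) (a := a) (d := d) ?_ ?_ ?_]
  · exact h2
  · rw [← e1]
    simp [su, Matrix.mul_apply, Fin.sum_univ_three]
  · rw [← e2]
    simp [su, Matrix.mul_apply, Fin.sum_univ_three]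
  · simp [su, Matrix.mul_apply, Fin.sum_univ_three]

theorem eq_of_add {x y : F16} (h : x + y = 0) : x = y := by
  have t := F16.add_self y
  linear_combination h - t

end Mz

theorem zero_of_not_mem (K : Subgroup U) (hK : QQ ≤ K) (g : U) (hg : g ∈ K) (hg0 : g ∉ QQ) :
    ∃ g' ∈ K, g'.m 0 0 = 0 := by
  open Mz in
  by_cases h0 : N (g.m 0 0) = 1
  · have hc := col_norm g
    have hr := row_norm g
    have hc' : N (g.m 1 0) + N (g.m 2 0) = 0 := by linear_combination hc - h0
    have hr' : N (g.m 0 1) + N (g.m 0 2) = 0 := by linear_combination hr - h0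
    have hw : g.m 1 0 ≠ 0 := by
      intro h
      have h1 : N (g.m 2 0) = 0 := by rw [h, N_zero, zero_add] at hc'; exact hc'
      exact hg0 (QQ_of_col h (N_eq_zero _ h1))
    have hrow : g.m 0 1 ≠ 0 := by
      intro h
      have h1 : N (g.m 0 2) = 0 := by rw [h, N_zero, zero_add] at hr'; exact hr'
      have h2 := N_eq_zero _ h1
      have e0 := congrFun (congrFun g.h 1) 0
      simp [Matrix.mul_apply, Fin.sum_univ_three, h, h2] at e0
      rcases e0 with h3 | h3
      · exact hw h3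
      · rw [h3, N_zero] at h0
        exact zero_ne_one h0
    have hcN : N (g.m 0 0 * cb g.b (g.m 0 0)) = 1 := by
      rw [N_mul, N_cb, h0, one_mul]
    have huv : N (g.m 0 1 * cb g.b (g.m 1 0)) = N (g.m 0 2 * cb g.b (g.m 2 0)) := by
      rw [N_mul, N_mul, N_cb, N_cb, eq_of_add hc', eq_of_add hr']
    have hu : g.m 0 1 * cb g.b (g.m 1 0) ≠ 0 := by
      intro h
      rcases mul_eq_zero.1 h with h1 | h1
      · exact hrow h1
      · apply hw
        have : cb g.b (cb g.b (g.m 1 0)) = 0 := by rw [h1, map_zero]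
        rwa [cb_cb'] at this
    obtain ⟨m', hm', hne⟩ := move _ _ _ hcN huv hu
    have hm : N (cb g.b m') + N 0 = 1 := by rw [N_cb, N_zero, add_zero]; exact hm'
    have hmem : g * (su (cb g.b m') 0 hm * g) ∈ K :=
      K.mul_mem hg (K.mul_mem (hK (su_mem hm)) hg)
    refine zero_of_ne hK hmem ?_
    rw [corner g (su (cb g.b m') 0 hm) (a := cb g.b m' * g.m 1 0)
      (d := F16.cj (cb g.b m') * g.m 2 0) ?_ ?_ ?_]
    · rw [map_mul, map_mul, cb_cb', cb_cj, cb_cb']
      have e : g.m 0 1 * (m' * cb g.b (g.m 1 0)) + g.m 0 2 * (F16.cj m' * cb g.b (g.m 2 0)) +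
          g.m 0 0 * cb g.b (g.m 0 0) = m' * (g.m 0 1 * cb g.b (g.m 1 0)) +
          F16.cj m' * (g.m 0 2 * cb g.b (g.m 2 0)) + g.m 0 0 * cb g.b (g.m 0 0) := by ring
      rw [e]
      exact hne
    · simp [su, Matrix.mul_apply, Fin.sum_univ_three]
    · simp [su, Matrix.mul_apply, Fin.sum_univ_three]
    · simp [su, Matrix.mul_apply, Fin.sum_univ_three]
  · exact zero_of_ne hK hg h0

theorem tt_of_zero (K : Subgroup U) (hK : QQ ≤ K) (g : U) (hg : g ∈ K) (h0 : g.m 0 0 = 0) :
    tt ∈ K := by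
  open Mz in
  have hn := col_norm g
  rw [h0, N_zero, zero_add] at hn
  have h1 : InS K 0 (g.m 1 0) (g.m 2 0) := ⟨g, hg, h0, rfl, rfl⟩
  have hxy : N (F16.cj (g.m 1 0)) + N (F16.cj (g.m 2 0)) = 1 := by rw [N_cj, N_cj]; exact hn
  obtain ⟨k, hk, k1, k2, k3⟩ := rot hK hxy h1
  have e2 : k.m 1 0 = 1 := by
    rw [k2, ← hn]; unfold N; ring
  have e3 : k.m 2 0 = 0 := by
    rw [k3, F16.cj_cj, F16.cj_cj]
    exact (by rw [mul_comm]; exact F16.add_self _)
  have hq := same_col (g := tt) (k := k) (by rw [k1]; rfl) (by rw [e2]; rfl) (by rw [e3]; rfl)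
  have : tt = k * (k⁻¹ * tt) := by group
  rw [this]
  exact K.mul_mem hk (hK hq)

/-- The stabiliser is a maximal subgroup. -/
theorem hmax : IsCoatom QQ := by
  constructor
  · intro h
    have h1 : tt ∈ QQ := by rw [h]; trivial
    have h2 := h1.1
    exact absurd h2 (by decide +kernel)
  · intro K hK
    obtain ⟨g, hg, hg0⟩ := SetLike.exists_of_lt hK
    obtain ⟨g', hg', h0⟩ := zero_of_not_mem K hK.le g hg hg0
    exact top_of_t K hK.le (tt_of_zero K hK.le g' hg' h0)

end Vale.Agent.P183.H287
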