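import Vale.Agent.P183.H287.F16

/-!
The group `SU_3(4) : 2`, where the involution acts by the conjugation of the entries.
-/

set_option autoImplicit false
set_option linter.all false

namespace Vale.Agent.P183.H287

open Matrix

/-- Three by three matrices. -/
abbrev M3 : Type := Matrix (Fin 3) (Fin 3) F16

/-- The identity or the conjugation. -/
def sf (b : Bool) : F16 →+* F16 := if b then starRingEnd F16 else RingHom.id F16

/-- The identity or the conjugation of the entries. -/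
def tw (b : Bool) : M3 →+* M3 := (sf b).mapMatrix

theorem tw_apply (b : Bool) (m : M3) (i j : Fin 3) : tw b m i j = sf b (m i j) := rfl

theorem sf_false (x : F16) : sf false x = x := rfl
theorem sf_true (x : F16) : sf true x = F16.cj x := rfl

theorem sf_sf : ∀ (b b' : Bool) (x : F16), sf b (sf b' x) = sf (xor b b') x := by
  rintro (_ | _) (_ | _) x
  · rfl
  · rfl
  · rfl
  · exact F16.cj_cj x

theorem sf_star (b : Bool) (x : F16) : sf b (star x) = star (sf b x) := by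
  cases b <;> rfl

theorem tw_tw (b b' : Bool) (m : M3) : tw b (tw b' m) = tw (xor b b') m := by
  ext i j
  exact sf_sf b b' (m i j)

theorem tw_conj (b : Bool) (m : M3) : tw b mᴴ = (tw b m)ᴴ := by
  ext i j
  exact sf_star b (m j i)

theorem det_tw (b : Bool) (m : M3) : (tw b m).det = sf b m.det := (RingHom.map_det (sf b) m).symm

/-- The group `SU_3(4) : 2`. -/
structure QU : Type where
  m : M3
  b : Bool
  uni : m * mᴴ = 1
  det : m.det = 1

namespace QU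

@[ext] theorem ext' {x y : QU} (h1 : x.m = y.m) (h2 : x.b = y.b) : x = y := by
  cases x; cases y; simp_all

theorem uni' (x : QU) : x.mᴴ * x.m = 1 := mul_eq_one_comm.1 x.uni

instance : One QU := ⟨⟨1, false, by simp, by simp⟩⟩
instance : Mul QU := ⟨fun x y => ⟨x.m * tw x.b y.m, xor x.b y.b, by
  rw [conjTranspose_mul, Matrix.mul_assoc, ← Matrix.mul_assoc (tw x.b y.m), ← tw_conj,
    ← map_mul, y.uni, map_one, Matrix.one_mul, x.uni], by
  rw [det_mul, det_tw, x.det, y.det, map_one, one_mul]⟩⟩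
instance : Inv QU := ⟨fun x => ⟨tw x.b x.mᴴ, x.b, by
  rw [← tw_conj, ← map_mul, conjTranspose_conjTranspose, x.uni', map_one], by
  rw [det_tw, det_conjTranspose, x.det, star_one, map_one]⟩⟩

theorem one_m : (1 : QU).m = 1 := rfl
theorem one_b : (1 : QU).b = false := rfl
theorem mul_m (x y : QU) : (x * y).m = x.m * tw x.b y.m := rfl
theorem mul_b (x y : QU) : (x * y).b = xor x.b y.b := rfl
theorem inv_m (x : QU) : (x⁻¹).m = tw x.b x.mᴴ := rfl
theorem inv_b (x : QU) : (x⁻¹).b = x.b := rfl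

theorem tw_false (m : M3) : tw false m = m := rfl

instance : Group QU where
  mul_assoc x y z := by
    apply ext'
    · rw [mul_m, mul_m, mul_m, mul_m, mul_b, map_mul, tw_tw, Matrix.mul_assoc]
    · rw [mul_b, mul_b, mul_b, mul_b, Bool.xor_assoc]
  one_mul x := by
    apply ext'
    · rw [mul_m, one_m, one_b, tw_false, Matrix.one_mul]
    · rw [mul_b, one_b, Bool.false_xor]
  mul_one x := by
    apply ext'
    · rw [mul_m, one_m, map_one, Matrix.mul_one]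
    · rw [mul_b, one_b, Bool.xor_false]
  inv_mul_cancel x := by
    apply ext'
    · rw [mul_m, inv_m, inv_b, ← map_mul, x.uni', map_one, one_m]
    · rw [mul_b, inv_b, Bool.xor_self, one_b]

/-- The subgroup `SU_3(4)`. -/
def T : Subgroup QU where
  carrier := {x | x.b = false}
  one_mem' := rfl
  mul_mem' := by
    intro x y hx hy
    change xor x.b y.b = false
    rw [show x.b = false from hx, show y.b = false from hy]
    rfl
  inv_mem' := fun {x} hx => hx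

theorem mem_T {x : QU} : x ∈ T ↔ x.b = false := Iff.rfl

instance : T.Normal := ⟨fun x hx q => by
  rw [mem_T] at hx ⊢
  rw [mul_b, mul_b, inv_b, hx, Bool.xor_false, Bool.xor_self]⟩

/-- Block diagonal matrices. -/
def Blk (m : M3) : Prop := m 0 2 = 0 ∧ m 1 2 = 0 ∧ m 2 0 = 0 ∧ m 2 1 = 0

theorem Blk.one : Blk 1 := ⟨rfl, rfl, rfl, rfl⟩

theorem Blk.mul {m n : M3} (hm : Blk m) (hn : Blk n) : Blk (m * n) := by
  obtain ⟨h1, h2, h3, h4⟩ := hm
  obtain ⟨k1, k2, k3, k4⟩ := hn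
  refine ⟨?_, ?_, ?_, ?_⟩ <;>
    simp [Matrix.mul_apply, Fin.sum_univ_three, h1, h2, h3, h4, k1, k2, k3, k4]

theorem Blk.tw {m : M3} (hm : Blk m) (b : Bool) : Blk (tw b m) := by
  obtain ⟨h1, h2, h3, h4⟩ := hm
  refine ⟨?_, ?_, ?_, ?_⟩ <;> simp [tw_apply, h1, h2, h3, h4]

theorem Blk.conj {m : M3} (hm : Blk m) : Blk mᴴ := by
  obtain ⟨h1, h2, h3, h4⟩ := hm
  refine ⟨?_, ?_, ?_, ?_⟩ <;> simp [Matrix.conjTranspose_apply, h1, h2, h3, h4]

/-- The stabiliser of a nonisotropic point. -/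
def Q0 : Subgroup QU where
  carrier := {x | Blk x.m}
  one_mem' := Blk.one
  mul_mem' := fun {x y} hx hy => Blk.mul hx (Blk.tw hy _)
  inv_mem' := fun {x} hx => Blk.tw (Blk.conj hx) _

theorem mem_Q0 {x : QU} : x ∈ Q0 ↔ Blk x.m := Iff.rfl

theorem blk22_mul {m n : M3} (hm : Blk m) : (m * n) 2 2 = m 2 2 * n 2 2 := by
  obtain ⟨h1, h2, h3, h4⟩ := hm
  simp [Matrix.mul_apply, Fin.sum_univ_three, h3, h4]

/-- The elements of `SU_2(4)`. -/
def B : Subgroup QU where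
  carrier := {x | x.b = false ∧ Blk x.m ∧ x.m 2 2 = 1}
  one_mem' := ⟨rfl, Blk.one, rfl⟩
  mul_mem' := by
    rintro x y ⟨h1, h2, h3⟩ ⟨k1, k2, k3⟩
    refine ⟨?_, Blk.mul h2 (Blk.tw k2 _), ?_⟩
    · rw [mul_b, h1, k1]; rfl
    · rw [mul_m, blk22_mul h2, tw_apply, h3, k3, map_one, one_mul]
  inv_mem' := by
    rintro x ⟨h1, h2, h3⟩
    refine ⟨h1, Blk.tw (Blk.conj h2) _, ?_⟩
    rw [inv_m, tw_apply, Matrix.conjTranspose_apply, h3, star_one, map_one]

theorem mem_B {x : QU} : x ∈ B ↔ x.b = false ∧ Blk x.m ∧ x.m 2 2 = 1 := Iff.rfl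

/-- Scalar block. -/
def Scl (m : M3) : Prop := Blk m ∧ m 0 1 = 0 ∧ m 1 0 = 0 ∧ m 0 0 = m 1 1

/-- The centre of `T ∩ Q0`. -/
def A : Subgroup QU where
  carrier := {x | x.b = false ∧ Scl x.m}
  one_mem' := ⟨rfl, Blk.one, rfl, rfl, rfl⟩
  mul_mem' := by
    rintro x y ⟨h1, ⟨a1, a2, a3, a4⟩, h2, h3, h4⟩ ⟨k1, ⟨b1, b2, b3, b4⟩, k2, k3, k4⟩
    refine ⟨?_, Blk.mul ⟨a1, a2, a3, a4⟩ (Blk.tw ⟨b1, b2, b3, b4⟩ _), ?_, ?_, ?_⟩
    · rw [mul_b, h1, k1]; rfl
    · simp [mul_m, h1, tw_false, Matrix.mul_apply, Fin.sum_univ_three, a1, a2, a3, a4, b1, b2,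
        b3, b4, h2, h3, k2, k3]
    · simp [mul_m, h1, tw_false, Matrix.mul_apply, Fin.sum_univ_three, a1, a2, a3, a4, b1, b2,
        b3, b4, h2, h3, k2, k3]
    · simp [mul_m, h1, tw_false, Matrix.mul_apply, Fin.sum_univ_three, a1, a2, a3, a4, b1, b2,
        b3, b4, h2, h3, k2, k3, h4, k4]
  inv_mem' := by
    rintro x ⟨h1, ⟨a1, a2, a3, a4⟩, h2, h3, h4⟩
    refine ⟨h1, Blk.tw (Blk.conj ⟨a1, a2, a3, a4⟩) _, ?_, ?_, ?_⟩
    · simp [inv_m, tw_apply, Matrix.conjTranspose_apply, h3]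
    · simp [inv_m, tw_apply, Matrix.conjTranspose_apply, h2]
    · simp [inv_m, tw_apply, Matrix.conjTranspose_apply, h4]

theorem mem_A {x : QU} : x ∈ A ↔ x.b = false ∧ Scl x.m := Iff.rfl

theorem A_le : A ≤ T ⊓ Q0 := fun _ hx => ⟨hx.1, hx.2.1⟩
theorem B_le : B ≤ T ⊓ Q0 := fun _ hx => ⟨hx.1, hx.2.1⟩

/-- A block scalar matrix commutes with block diagonal matrices. -/
theorem scl_comm {m n : M3} (hm : Scl m) (hn : Blk n) : n * m = m * n := by
  obtain ⟨⟨a1, a2, a3, a4⟩, h2, h3, h4⟩ := hm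
  obtain ⟨b1, b2, b3, b4⟩ := hn
  ext i j
  fin_cases i <;> fin_cases j <;>
    simp [Matrix.mul_apply, Fin.sum_univ_three, a1, a2, a3, a4, b1, b2, b3, b4, h2, h3, h4] <;>
    ring

theorem Scl.tw {m : M3} (hm : Scl m) (b : Bool) : Scl (tw b m) := by
  obtain ⟨h0, h2, h3, h4⟩ := hm
  refine ⟨h0.tw b, ?_, ?_, ?_⟩
  · simp [tw_apply, h2]
  · simp [tw_apply, h3]
  · simp [tw_apply, h4]

theorem A_conj : ∀ q ∈ Q0, ∀ x ∈ A, q * x * q⁻¹ ∈ A := by
  rintro q hq x ⟨h1, h2⟩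
  refine ⟨?_, ?_⟩
  · rw [mul_b, mul_b, inv_b, h1, Bool.xor_false, Bool.xor_self]
  · have e : (q * x * q⁻¹).m = tw q.b x.m := by
      rw [mul_m, mul_m, mul_b, h1, Bool.xor_false, inv_m, tw_tw, Bool.xor_self, tw_false,
        scl_comm (h2.tw q.b) hq, Matrix.mul_assoc, q.uni, Matrix.mul_one]
    rw [e]
    exact h2.tw q.b

theorem B_conj : ∀ q ∈ Q0, ∀ x ∈ B, q * x * q⁻¹ ∈ B := by
  rintro q hq x ⟨h1, h2, h3⟩
  refine ⟨?_, ?_, ?_⟩
  · rw [mul_b, mul_b, inv_b, h1, Bool.xor_false, Bool.xor_self]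
  · exact (Q0.mul_mem (Q0.mul_mem hq (show x ∈ Q0 from h2)) (Q0.inv_mem hq) :)
  · have e : (q * x * q⁻¹).m = q.m * tw q.b x.m * q.mᴴ := by
      rw [mul_m, mul_m, mul_b, h1, Bool.xor_false, inv_m, tw_tw, Bool.xor_self, tw_false]
    have e2 : (q.m * q.mᴴ) 2 2 = q.m 2 2 * q.mᴴ 2 2 := blk22_mul hq
    rw [q.uni, Matrix.one_apply_eq] at e2
    rw [e, blk22_mul (Blk.mul hq (h2.tw _)), blk22_mul hq, tw_apply, h3, map_one, mul_one, ← e2]

end QU

end Vale.Agent.P183.H287
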